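import Mathlib

/-!
# P192: systems of cones and periodic groups

A finitely generated periodic group, acting by bijections which map cones to cones locally, has a
uniform depth.
-/

namespace Vale.Agent.P192.H503

universe u v

/-- A system of cones for the bijections of `Ω`: `R g a b` means that `g` maps the cone `a` onto
the cone `b` by an admissible similarity, `le a b` that `a` is inside `b`. -/
structure ConeSys (Ω : Type u) where
  C : Type v
  len : C → ℕ
  le : C → C → Prop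
  le_refl : ∀ a, le a a
  le_trans : ∀ a b c, le a b → le b c → le a c
  fin : ∀ n, {a | len a = n}.Finite
  anc : ∀ a n, n ≤ len a → ∃ b, le a b ∧ len b = n
  cmp : ∀ a b c, le a b → le a c → len b ≤ len c → le c b
  R : Equiv.Perm Ω → C → C → Prop
  R_refl : ∀ a, R 1 a a
  R_mul : ∀ g h a b c, R g a b → R h b c → R (h * g) a c
  R_inv : ∀ g a b, R g a b → R g⁻¹ b a
  R_res : ∀ g a b a', R g a b → le a' a →
    ∃ b', le b' b ∧ R g a' b' ∧ len b' + len a = len a' + len b
  R_one : ∀ a b, R 1 a b → a = b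

namespace ConeSys

variable {Ω : Type u} (D : ConeSys.{u, v} Ω)

theorem R_unique {g : Equiv.Perm Ω} {a b c : D.C} (h1 : D.R g a b) (h2 : D.R g a c) : b = c := by
  have := D.R_mul _ _ _ _ _ (D.R_inv _ _ _ h1) h2
  rw [mul_inv_cancel] at this
  exact D.R_one _ _ this

/-- `g` is defined on all cones of length `n`. -/
def Def (n : ℕ) (g : Equiv.Perm Ω) : Prop := ∀ a, D.len a = n → ∃ b, D.R g a b

/-- a map defined at length `n` is defined at larger lengths, with a bounded drop -/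
theorem Def.step {n : ℕ} {g : Equiv.Perm Ω} (h : D.Def n g) {a : D.C} (ha : n ≤ D.len a) :
    ∃ b, D.R g a b ∧ D.len a ≤ D.len b + n := by
  obtain ⟨p, hp, hpn⟩ := D.anc a n ha
  obtain ⟨q, hq⟩ := h p hpn
  obtain ⟨b, -, hb, hl⟩ := D.R_res g p q a hq hp
  exact ⟨b, hb, by omega⟩

/-- a cone mapped strictly inside itself -/
theorem expand {g : Equiv.Perm Ω} {a b : D.C} (h : D.R g a b) (hb : D.le b a)
    (hl : D.len a < D.len b) (k : ℕ) :
    ∃ c, D.R (g ^ (k + 1)) a c ∧ D.le c a ∧ D.len a < D.len c := by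
  induction k with
  | zero => exact ⟨b, by simpa using h, hb, hl⟩
  | succ k ih =>
    obtain ⟨c, hc, hca, hcl⟩ := ih
    obtain ⟨d, hd, hgd, hdl⟩ := D.R_res g a b c h hca
    refine ⟨d, ?_, D.le_trans _ _ _ hd hb, by omega⟩
    have := D.R_mul _ _ _ _ _ hc hgd
    rwa [← pow_succ'] at this

theorem not_expand {g : Equiv.Perm Ω} (hg : IsOfFinOrder g) {a b : D.C} (h : D.R g a b)
    (hb : D.le b a) (hl : D.len a < D.len b) : False := by
  obtain ⟨n, hn, hgn⟩ := hg.exists_pow_eq_one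
  obtain ⟨k, rfl⟩ : ∃ k, n = k + 1 := ⟨n - 1, by omega⟩
  obtain ⟨c, hc, -, hcl⟩ := D.expand h hb hl k
  rw [hgn] at hc
  have := D.R_one _ _ hc
  subst this
  omega

section path

variable (s : ℕ → Equiv.Perm Ω)

/-- partial products -/
def pp : ℕ → Equiv.Perm Ω
  | 0 => 1
  | i + 1 => s i * pp i

variable {D s}

/-- going backwards from a running minimum of the lengths, the ancestors can be carried along -/
theorem lift_back {n : ℕ} (hs : ∀ i, D.Def n (s i)⁻¹) (c : ℕ → D.C) (a : D.C) (k : ℕ)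
    (hc : ∀ i ≤ k, D.R (pp s i) a (c i)) (hmin : ∀ i ≤ k, D.len (c k) ≤ D.len (c i)) (p : D.C)
    (hp : D.le (c k) p) (hpn : D.len p = n) (m : ℕ) (hm : m ≤ k) :
    ∃ t, D.R (pp s (k - m) * (pp s k)⁻¹) p t ∧ D.le (c (k - m)) t ∧
      D.len t + D.len (c k) = n + D.len (c (k - m)) := by
  induction m with
  | zero =>
    refine ⟨p, ?_, by simpa using hp, by simp [hpn]⟩
    simpa using D.R_refl p
  | succ m ih =>
    obtain ⟨t, ht, hct, htl⟩ := ih (by omega)
    set j := k - (m + 1) with hj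
    have hj1 : k - m = j + 1 := by omega
    rw [hj1] at ht hct htl
    have hjk : j + 1 ≤ k := by omega
    have htn : n ≤ D.len t := by
      have := hmin (j + 1) hjk
      omega
    obtain ⟨q, hq, hqn⟩ := D.anc t n htn
    obtain ⟨q', hq'⟩ := hs j q hqn
    obtain ⟨t', ht', hRt', htl'⟩ := D.R_res _ q q' t hq' hq
    obtain ⟨b, hb, hRb, hbl⟩ := D.R_res _ t t' (c (j + 1)) hRt' hct
    have h1 : D.R (s j) (c j) (c (j + 1)) := by
      have := D.R_mul _ _ _ _ _ (D.R_inv _ _ _ (hc j (by omega))) (hc (j + 1) hjk)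
      simpa [pp] using this
    have h2 : b = c j := D.R_unique hRb (D.R_inv _ _ _ h1)
    subst h2
    refine ⟨t', ?_, hb, by omega⟩
    have := D.R_mul _ _ _ _ _ ht hRt'
    convert this using 1
    simp [pp, mul_assoc]

/-- **Uniform depth.** -/
theorem uniform_path {n : ℕ} (hn : 0 < n) (hs : ∀ i, D.Def n (s i) ∧ D.Def n (s i)⁻¹)
    (ht : ∀ i j, IsOfFinOrder (pp s i * (pp s j)⁻¹)) (r : ℕ)
    (hr : n * ({a | D.len a = n}.ncard + 2) ≤ r) (a : D.C) (ha : D.len a = r) (k : ℕ) :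
    ∃ b, D.R (pp s k) a b ∧ n ≤ D.len b := by
  classical
  by_contra hk
  -- the first bad time
  have hex : ∃ k, ¬ ∃ b, D.R (pp s k) a b ∧ n ≤ D.len b := ⟨k, hk⟩
  set K := Nat.find hex with hK
  have hbad := Nat.find_spec hex
  have hgood : ∀ i < K, ∃ b, D.R (pp s i) a b ∧ n ≤ D.len b := by
    intro i hi
    have := Nat.find_min hex hi
    simpa using this
  rw [← hK] at hbad
  have hrn : n * 2 ≤ r := by nlinarith [Nat.zero_le ({a | D.len a = n}.ncard)]
  have hK0 : K ≠ 0 := by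
    intro h
    rw [h] at hbad
    exact hbad ⟨a, D.R_refl a, by omega⟩
  obtain ⟨K', hK'⟩ : ∃ K', K = K' + 1 := ⟨K - 1, by omega⟩
  have hex' : ∀ i, i ≤ K → ∃ b, D.R (pp s i) a b ∧ (i < K → n ≤ D.len b) := by
    intro i hi
    rcases hi.lt_or_eq with hi | hi
    · obtain ⟨b, hb, hbn⟩ := hgood i hi
      exact ⟨b, hb, fun _ => hbn⟩
    · subst hi
      obtain ⟨b, hb, hbn⟩ := hgood K' (by omega)
      obtain ⟨b', hb', -⟩ := (hs K').1.step D hbn
      refine ⟨b', ?_, fun h => absurd h (lt_irrefl _)⟩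
      rw [hK']
      exact D.R_mul _ _ _ _ _ hb hb'
  have hex'' : ∀ i, ∃ b, i ≤ K → (D.R (pp s i) a b ∧ (i < K → n ≤ D.len b)) := by
    intro i
    by_cases hi : i ≤ K
    · obtain ⟨b, hb⟩ := hex' i hi
      exact ⟨b, fun _ => hb⟩
    · exact ⟨a, fun h => absurd h hi⟩
  choose c hc using hex''
  have hd0 : D.len (c 0) = r := by
    have := D.R_one _ _ (hc 0 (Nat.zero_le _)).1
    rw [← this, ha]
  have hdrop : ∀ i, i < K → D.len (c i) ≤ D.len (c (i + 1)) + n := by
    intro i hi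
    obtain ⟨b', hb', hl⟩ := (hs i).1.step D ((hc i hi.le).2 hi)
    have h1 : D.R (pp s (i + 1)) a b' := D.R_mul _ _ _ _ _ (hc i hi.le).1 hb'
    rw [D.R_unique (hc (i + 1) hi).1 h1]
    exact hl
  have hdK : D.len (c K) < n := by
    by_contra h
    exact hbad ⟨c K, (hc K le_rfl).1, by omega⟩
  -- first passage times
  set N := {a | D.len a = n}.ncard with hN
  have hex3 : ∀ m, m ≤ N → ∃ i, i ≤ K ∧ D.len (c i) + n * m ≤ r := by
    intro m hm
    refine ⟨K, le_rfl, ?_⟩
    nlinarith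
  have hex4 : ∀ m, ∃ i, m ≤ N → (i ≤ K ∧ D.len (c i) + n * m ≤ r ∧
      r < D.len (c i) + n * (m + 1) ∧ ∀ j < i, r < D.len (c j) + n * m) := by
    intro m
    by_cases hm : m ≤ N
    · have h := hex3 m hm
      refine ⟨Nat.find h, fun _ => ⟨(Nat.find_spec h).1, (Nat.find_spec h).2, ?_, ?_⟩⟩
      · rcases Nat.eq_zero_or_pos (Nat.find h) with h0 | h0
        · have h1 := (Nat.find_spec h).2
          rw [h0, hd0] at h1 ⊢
          nlinarith
        · obtain ⟨i, hi⟩ : ∃ i, Nat.find h = i + 1 := ⟨Nat.find h - 1, by omega⟩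
          have h1 := Nat.find_min h (m := i) (by omega)
          have h2 := (Nat.find_spec h).1
          rw [hi] at h2 ⊢
          have h3 := hdrop i (by omega)
          have h4 : r < D.len (c i) + n * m := by
            by_contra h5
            exact h1 ⟨by omega, by omega⟩
          nlinarith
      · intro j hj
        have h1 := Nat.find_min h hj
        by_contra h5
        exact h1 ⟨by have := (Nat.find_spec h).1; omega, by omega⟩
    · exact ⟨0, fun h => absurd h hm⟩
  choose τ hτ using hex4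
  have hex5 : ∀ m : Fin (N + 1), ∃ p, D.le (c (τ m)) p ∧ D.len p = n := by
    intro m
    obtain ⟨h1, h2, h3, h4⟩ := hτ m (by omega)
    apply D.anc
    have : n * ((m : ℕ) + 2) ≤ r := by
      have : (m : ℕ) + 2 ≤ N + 2 := by omega
      nlinarith
    nlinarith
  choose p hp using hex5
  have hfin := D.fin n
  obtain ⟨m1, m2, hne, hpe⟩ : ∃ m1 m2 : Fin (N + 1), m1 ≠ m2 ∧ p m1 = p m2 := by
    have hcard : (hfin.toFinset).card < (Finset.univ : Finset (Fin (N + 1))).card := by
      rw [Finset.card_univ, Fintype.card_fin, ← Set.ncard_eq_toFinset_card _ hfin]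
      omega
    obtain ⟨x, -, y, -, hxy, he⟩ := Finset.exists_ne_map_eq_of_card_lt_of_maps_to hcard
      (f := p) (fun x _ => by simpa using (hp x).2)
    exact ⟨x, y, hxy, he⟩
  -- order the two indices
  wlog hlt : m1 < m2 generalizing m1 m2
  · exact this m2 m1 hne.symm hpe.symm (lt_of_le_of_ne (not_lt.1 hlt) hne.symm)
  obtain ⟨a1, a2, a3, a4⟩ := hτ m1 (by omega)
  obtain ⟨b1, b2, b3, b4⟩ := hτ m2 (by omega)
  have hlt' : (m1 : ℕ) + 1 ≤ m2 := hlt
  have hlen : D.len (c (τ m2)) < D.len (c (τ m1)) := by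
    have : n * ((m1 : ℕ) + 1) ≤ n * m2 := Nat.mul_le_mul_left _ hlt'
    omega
  have hτle : τ m1 ≤ τ m2 := by
    by_contra h
    have h1 := a4 (τ m2) (by omega)
    have : n * (m1 : ℕ) ≤ n * m2 := Nat.mul_le_mul_left _ (by omega)
    omega
  have hmin : ∀ i ≤ τ m2, D.len (c (τ m2)) ≤ D.len (c i) := by
    intro i hi
    rcases hi.lt_or_eq with hi | hi
    · have := b4 i hi
      omega
    · rw [hi]
  obtain ⟨t, ht1, ht2, ht3⟩ := lift_back (fun i => (hs i).2) c a (τ m2)
    (fun i hi => (hc i (by omega)).1) hmin (p m2) (hp m2).1 (hp m2).2 (τ m2 - τ m1) (by omega)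
  have he : τ m2 - (τ m2 - τ m1) = τ m1 := by omega
  rw [he] at ht1 ht2 ht3
  refine D.not_expand (ht _ _) ht1 ?_ ?_
  · exact D.cmp (c (τ m1)) (p m2) t (hpe ▸ (hp m1).1) ht2 (by rw [(hp m2).2]; omega)
  · rw [(hp m2).2]
    omega

end path

end ConeSys

end Vale.Agent.P192.H503
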