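import Vale.Agent.P192.R2.H503.PadicSys

/-!
# P192: finitely generated periodic groups of C1 bijections of the p-adic integers are finite
-/

namespace Vale.Agent.P192.H503

theorem finiteIndex_of_map {Γ κ : Type*} [Group Γ] [Finite κ] {N M : Subgroup Γ}
    (hN : N.FiniteIndex) (hMN : M ≤ N) (F : N → κ)
    (hF : ∀ g h : N, F g = F h → ((g : Γ)⁻¹ * h) ∈ M) : M.FiniteIndex := by
  have h1 : Function.Injective (fun q : N ⧸ M.subgroupOf N => F q.out) := by
    intro q q' h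
    have h2 := hF _ _ h
    rw [← QuotientGroup.out_eq' q, ← QuotientGroup.out_eq' q', QuotientGroup.eq,
      Subgroup.mem_subgroupOf]
    exact h2
  have h2 : Finite (N ⧸ M.subgroupOf N) := Finite.of_injective _ h1
  have h3 : (M.subgroupOf N).FiniteIndex := Subgroup.finiteIndex_of_finite_quotient
  refine ⟨?_⟩
  rw [← Subgroup.relIndex_mul_index hMN]
  exact mul_ne_zero h3.index_ne_zero hN.index_ne_zero

theorem finite_range_of_ker {Γ H : Type*} [Group Γ] [Group H] (ρ : Γ →* H) {M : Subgroup Γ}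
    (hM : M.FiniteIndex) (h : M ≤ ρ.ker) : Finite ρ.range := by
  have h1 : ρ.ker.FiniteIndex := Subgroup.finiteIndex_of_le h
  have h2 : Finite (Γ ⧸ ρ.ker) := inferInstance
  exact Finite.of_equiv _ (QuotientGroup.quotientKerEquivRange ρ).toEquiv

section padic

variable {p : ℕ} [hp : Fact p.Prime]

theorem Aff.change {f : ℤ_[p] → ℤ_[p]} {D : ℚ_[p]} {s : ℤ_[p] → Prop} (h : Aff f D s)
    (hD : ‖D‖ = 1) (hD' : ‖D - 1‖ ≤ (p : ℝ) ^ (-2 : ℤ)) : Aff f 1 s := by
  intro x y hx hy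
  have h1 := h x y hx hy
  have h2 : ((f x : ℚ_[p]) - (f y : ℚ_[p])) - 1 * ((x : ℚ_[p]) - (y : ℚ_[p])) =
      (((f x : ℚ_[p]) - (f y : ℚ_[p])) - D * ((x : ℚ_[p]) - (y : ℚ_[p]))) +
      (D - 1) * ((x : ℚ_[p]) - (y : ℚ_[p])) := by ring
  rw [h2, norm_one, one_mul]
  refine (Padic.nonarchimedean _ _).trans (max_le ?_ ?_)
  · rwa [hD, one_mul] at h1
  · rw [norm_mul, nsub]
    exact mul_le_mul_of_nonneg_right hD' (norm_nonneg _)

/-- **Finitely generated periodic groups of C1 bijections of the p-adic integers.** -/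
theorem padic_main {Γ : Type*} [Group Γ] (hfg : Group.FG Γ) (hper : ∀ x : Γ, IsOfFinOrder x)
    (ρ : Γ →* Equiv.Perm ℤ_[p]) (hC : ∀ g, IsC1 (fun x => ρ g x)) : Finite ρ.range := by
  obtain ⟨r, N, hN, h⟩ := (padicSys p).exists_finiteIndex hfg hper ρ
    (fun g => padic_def (hC g) (by rw [← map_inv]; exact hC g⁻¹))
  have hcls : ∀ g ∈ N, ∀ x y, PE p r x y → PE p r x (ρ g y) := by
    intro g hg x y hxy
    have h1 := ((h g hg ⟨r, Quotient.mk (PE p r) x⟩ rfl).1.1 y).1
      (mk_eq.2 ((PE p r).symm hxy))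
    exact (PE p r).symm (mk_eq.1 h1)
  let M : Subgroup Γ :=
    { carrier := {g | g ∈ N ∧ ∀ x, Aff (fun y => ρ g y) 1 (fun y => PE p r x y)}
      one_mem' := ⟨one_mem _, fun x => by simpa using Aff.one _⟩
      mul_mem' := by
        rintro a b ⟨ha, ha'⟩ ⟨hb, hb'⟩
        refine ⟨mul_mem ha hb, fun x => ?_⟩
        have := (hb' x).comp (ha' x) (fun y hy => hcls b hb x y hy)
        rw [mul_one] at this
        simpa [map_mul] using this
      inv_mem' := by
        rintro a ⟨ha, ha'⟩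
        refine ⟨inv_mem ha, fun x => ?_⟩
        have := (ha' x).inv (g := fun y => ρ a⁻¹ y) (t := fun y => PE p r x y) one_ne_zero
          (fun y hy => ⟨hcls a⁻¹ (inv_mem ha) x y hy, by simp⟩)
        rwa [inv_one] at this }
  have hM : M.FiniteIndex := by
    have h1 : ∀ (g : N) (a : Quotient (PE p r)), ∃ D : ℚ_[p], ‖D‖ = 1 ∧
        Aff (fun x => ρ g x) D (cls p ⟨r, a⟩) := by
      intro g a
      obtain ⟨D, hD, hA⟩ := (h g g.2 ⟨r, a⟩ rfl).2
      exact ⟨D, by simpa using hD, hA⟩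
    choose D hD hA using h1
    have h1' : ∀ (g : N) (a : Quotient (PE p r)), ∃ z : ℤ_[p], (z : ℚ_[p]) = D g a :=
      fun g a => ⟨⟨D g a, (hD g a).le⟩, rfl⟩
    choose z hz using h1'
    have : Finite (Quotient (PE p r)) := pe_fin r
    have : NeZero (p ^ 2) := ⟨pow_ne_zero _ hp.out.ne_zero⟩
    refine finiteIndex_of_map (κ := Quotient (PE p r) → ZMod (p ^ 2)) hN (fun g hg => hg.1)
      (fun g a => PadicInt.toZModPow 2 (z g a)) ?_
    intro g g' hgg
    refine ⟨mul_mem (inv_mem g.2) g'.2, fun x => ?_⟩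
    set a := Quotient.mk (PE p r) x with ha
    have hs : (fun y => PE p r x y) = cls p ⟨r, a⟩ := by
      funext y
      apply propext
      change PE p r x y ↔ Quotient.mk (PE p r) y = Quotient.mk (PE p r) x
      rw [mk_eq]
      exact ⟨fun h => (PE p r).symm h, fun h => (PE p r).symm h⟩
    rw [hs]
    have hcl : ∀ k : N, ∀ y, cls p ⟨r, a⟩ y → cls p ⟨r, a⟩ (ρ k y) := by
      intro k y hy
      rw [← hs] at hy ⊢
      exact hcls k k.2 x y hy
    have h1 := hA g' a
    have h2 : Aff (fun y => ρ (g : Γ)⁻¹ y) (D g a)⁻¹ (cls p ⟨r, a⟩) := by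
      refine (hA g a).inv (norm_ne_zero_iff.1 (by rw [hD]; norm_num)) (fun y hy => ⟨?_, by simp⟩)
      have := hcl g⁻¹ y hy
      simpa using this
    have h3 := h1.comp h2 (hcl g')
    have h4 : Aff (fun y => ρ ((g : Γ)⁻¹ * g') y) ((D g a)⁻¹ * D g' a) (cls p ⟨r, a⟩) := by
      simpa [map_mul] using h3
    have hne : D g a ≠ 0 := norm_ne_zero_iff.1 (by rw [hD]; norm_num)
    refine h4.change (by rw [norm_mul, norm_inv, hD, hD]; norm_num) ?_
    have h5 : (D g a)⁻¹ * D g' a - 1 = -((D g a)⁻¹ * (D g a - D g' a)) := by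
      field_simp
      ring
    rw [h5, norm_neg, norm_mul, norm_inv, hD, inv_one, one_mul]
    have h6 := congrFun hgg a
    have h7 := PE_iff.1 (PE_iff_zmod.2 h6)
    rw [PadicInt.norm_def, PadicInt.coe_sub, hz, hz] at h7
    exact h7
  refine finite_range_of_ker ρ hM (fun g hg => ?_)
  rw [MonoidHom.mem_ker]
  by_contra hne
  have hfo : IsOfFinOrder (ρ g) := MonoidHom.isOfFinOrder ρ (hper g)
  set k := orderOf (ρ g) with hk
  have hk0 : 0 < k := hfo.orderOf_pos
  have hk1 : k ≠ 1 := fun h1 => hne (orderOf_eq_one_iff.1 h1)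
  obtain ⟨q, hq, hqk⟩ := Nat.exists_prime_and_dvd hk1
  obtain ⟨m, hm⟩ := hqk
  have hm0 : m ≠ 0 := by
    rintro rfl
    omega
  have hmk : m < k := by
    rw [hm]
    have := hq.two_le
    have : 0 < m := Nat.pos_of_ne_zero hm0
    nlinarith
  have h1 : (ρ g) ^ m ≠ 1 := pow_ne_one_of_lt_orderOf hm0 hmk
  apply h1
  have hgm : g ^ m ∈ M := pow_mem hg m
  ext1 x
  rw [← map_pow, Equiv.Perm.coe_one, id]
  refine no_prime (f := fun x => ρ (g ^ m) x) (r := r) (fun y => hcls _ hgm.1 y y ((PE p r).refl y))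
    (fun y z hyz => ?_) q hq (fun y => ?_) x
  · have := hgm.2 y y z ((PE p r).refl y) hyz
    rw [norm_one, one_mul, one_mul] at this
    rw [PadicInt.norm_def]
    push_cast
    exact this
  · have h2 : ρ ((g ^ m) ^ q) = 1 := by
      rw [← pow_mul, mul_comm m q, ← hm, map_pow, hk, pow_orderOf_eq_one]
    have h3 : (fun x => ρ (g ^ m) x)^[q] = fun x => ρ ((g ^ m) ^ q) x := by
      rw [map_pow ρ (g ^ m) q, Equiv.Perm.coe_pow]
    rw [h3, h2]
    rfl

end padic

end Vale.Agent.P192.H503
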