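import Vale.Agent.P192.R2.H51L.Fpb
import Vale.Agent.P192.R2.H503.Conf

/-!
# P192: conformal C1 bijections over the p-adic numbers
-/

namespace Vale.Agent.P192.H503

open Set Vale.Agent.P192.R2.H51L Topology

section conf

variable {p : ℕ} [hp : Fact p.Prime] {V : Type*} [NormedAddCommGroup V] [NormedSpace ℚ_[p] V]
  [IsUltrametricDist V] {U : Set V}

/-- strictly differentiable everywhere, the derivatives being similarities -/
def IsConf (p : ℕ) [Fact p.Prime] {V : Type*} [NormedAddCommGroup V] [NormedSpace ℚ_[p] V]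
    {U : Set V} (g : Equiv.Perm U) : Prop :=
  ∀ x : U, ∃ (D : V →ₗ[ℚ_[p]] V) (c : ℝ), 0 < c ∧ (∀ v, ‖D v‖ = c * ‖v‖) ∧
    ∀ ε : ℝ, 0 < ε → ∃ δ : ℝ, 0 < δ ∧ ∀ y z : U, ‖(y : V) - x‖ < δ → ‖(z : V) - x‖ < δ →
      ‖((g y : V) - g z) - D ((y : V) - z)‖ ≤ ε * ‖(y : V) - z‖

theorem conf_good [Nontrivial V] [FiniteDimensional ℚ_[p] V] [CompactSpace U] (hU : IsOpen U)
    {g : Equiv.Perm U} (hg : IsConf p g) (hg' : IsConf p g⁻¹) (x : U) :
    ∃ s ∈ cballs U, s ∈ 𝓝 x ∧ (confSys p V U).good g s := by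
  obtain ⟨D, c, hc, hD, hε⟩ := hg x
  obtain ⟨D', c', hc', hD', hε'⟩ := hg' (g x)
  have hpp := p2pos (p := p)
  obtain ⟨δ, hδ, hA⟩ := hε ((p : ℝ) ^ (-2 : ℤ) * c) (mul_pos hpp hc)
  obtain ⟨δ', hδ', hA'⟩ := hε' ((p : ℝ) ^ (-2 : ℤ) * c') (mul_pos hpp hc')
  have n1 : NS g D c (Metric.ball x δ) := by
    refine ⟨hc, hD, fun y hy z hz => ?_⟩
    rw [Metric.mem_ball, Subtype.dist_eq, dist_eq_norm] at hy hz
    have := hA y z hy hz
    rwa [mul_assoc] at this
  have n2 : NS g⁻¹ D' c' (Metric.ball (g x) δ') := by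
    refine ⟨hc', hD', fun y hy z hz => ?_⟩
    rw [Metric.mem_ball, Subtype.dist_eq, dist_eq_norm] at hy hz
    have := hA' y z hy hz
    rwa [mul_assoc] at this
  have hx1 : x ∈ Metric.ball x δ := Metric.mem_ball_self hδ
  have hx2 : g x ∈ Metric.ball (g x) δ' := Metric.mem_ball_self hδ'
  -- the ratios are inverse to each other
  have hcc : c' * c = 1 := by
    have hne : (𝓝[≠] (x : V)).NeBot := Module.punctured_nhds_neBot ℚ_[p] V (x : V)
    have h1 : ∀ᶠ y in 𝓝[≠] (x : V), y ∈ U := mem_nhdsWithin_of_mem_nhds (hU.mem_nhds x.2)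
    have h2 : ∀ᶠ y in 𝓝[≠] (x : V), y ∈ Metric.ball (x : V) (min δ (δ' / c)) :=
      mem_nhdsWithin_of_mem_nhds (Metric.ball_mem_nhds _ (lt_min hδ (div_pos hδ' hc)))
    have h3 : ∀ᶠ y in 𝓝[≠] (x : V), y ≠ (x : V) := self_mem_nhdsWithin
    obtain ⟨y, hyU, hyb, hyx⟩ := (h1.and (h2.and h3)).exists
    rw [Metric.mem_ball, dist_eq_norm, lt_min_iff] at hyb
    have hy1 : (⟨y, hyU⟩ : U) ∈ Metric.ball x δ := by
      rw [Metric.mem_ball, Subtype.dist_eq, dist_eq_norm]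
      exact hyb.1
    have e1 := n1.norm hy1 hx1
    have hy2 : g ⟨y, hyU⟩ ∈ Metric.ball (g x) δ' := by
      rw [Metric.mem_ball, Subtype.dist_eq, dist_eq_norm, e1]
      have := (lt_div_iff₀ hc).1 hyb.2
      linarith
    have e2 := n2.norm hy2 hx2
    rw [e1] at e2
    simp only [Equiv.Perm.coe_inv, Equiv.symm_apply_apply] at e2
    have h4 : 0 < ‖y - (x : V)‖ := norm_pos_iff.2 (sub_ne_zero.2 hyx)
    have h5 : (c' * c) * ‖y - (x : V)‖ = 1 * ‖y - (x : V)‖ := by linarith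
    exact mul_right_cancel₀ h4.ne' h5
  -- the radius
  obtain ⟨r, hr, hrδ, hrδ'⟩ : ∃ r : ℝ, 0 < r ∧ r < δ ∧ c * r < δ' := by
    refine ⟨min (δ / 2) (δ' / (2 * c)), lt_min (by positivity) (by positivity), ?_, ?_⟩
    · exact (min_le_left _ _).trans_lt (by linarith)
    · have : c * min (δ / 2) (δ' / (2 * c)) ≤ c * (δ' / (2 * c)) :=
        mul_le_mul_of_nonneg_left (min_le_right _ _) hc.le
      have h2 : c * (δ' / (2 * c)) = δ' / 2 := by field_simp
      linarith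
  have hsub : Metric.closedBall x r ⊆ Metric.ball x δ := Metric.closedBall_subset_ball hrδ
  have hsub' : Metric.closedBall (g x) (c * r) ⊆ Metric.ball (g x) δ' :=
    Metric.closedBall_subset_ball hrδ'
  refine ⟨Metric.closedBall x r, ⟨x, r, hr, rfl⟩, Metric.closedBall_mem_nhds x hr, ?_, D, c,
    n1.mono hsub⟩
  refine ⟨g x, c * r, mul_pos hc hr, ?_⟩
  ext w
  constructor
  · rintro ⟨y, hy, rfl⟩
    have e1 := n1.norm (hsub hy) hx1
    rw [Metric.mem_closedBall, Subtype.dist_eq, dist_eq_norm] at hy ⊢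
    rw [e1]
    exact mul_le_mul_of_nonneg_left hy hc.le
  · intro hw
    have e2 := n2.norm (hsub' hw) hx2
    refine ⟨g⁻¹ w, ?_, by simp⟩
    rw [Metric.mem_closedBall, Subtype.dist_eq, dist_eq_norm] at hw ⊢
    simp only [Equiv.Perm.coe_inv, Equiv.symm_apply_apply] at e2 ⊢
    rw [e2]
    calc c' * ‖(w : V) - g x‖ ≤ c' * (c * r) := mul_le_mul_of_nonneg_left hw hc'.le
      _ = (c' * c) * r := by ring
      _ = r := by rw [hcc, one_mul]

theorem conf_cov [Nontrivial V] [FiniteDimensional ℚ_[p] V] [CompactSpace U] (hU : IsOpen U)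
    {g : Equiv.Perm U} (hg : IsConf p g) (hg' : IsConf p g⁻¹) : Cov (confSys p V U) g := by
  choose s hs hsx hsg using conf_good hU hg hg'
  obtain ⟨t, ht⟩ := CompactSpace.elim_nhds_subcover s hsx
  refine ⟨s '' t, t.finite_toSet.image s, ?_, ?_, ?_⟩
  · rintro _ ⟨x, -, rfl⟩
    exact hs x
  · rw [sUnion_image]
    simpa using ht
  · rintro _ ⟨x, -, rfl⟩
    exact hsg x

/-- inverses of near identities -/
theorem NS.inv_id {g : Equiv.Perm U} {s : Set U}
    (h : NS (p := p) g LinearMap.id 1 s) : NS (p := p) g⁻¹ LinearMap.id 1 (g '' s) := by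
  refine ⟨one_pos, fun v => by simp, ?_⟩
  rintro _ ⟨y, hy, rfl⟩ _ ⟨z, hz, rfl⟩
  have h1 := h.2.2 y hy z hz
  have h2 := h.norm hy hz
  simp only [Equiv.Perm.coe_inv, Equiv.symm_apply_apply, LinearMap.id_coe, id] at h1 ⊢
  rw [h2, norm_sub_rev, one_mul]
  exact h1

/-- near identities have no points of prime order -/
theorem no_prime' {f : Equiv.Perm U} {s : Set U} (h : NS (p := p) f LinearMap.id 1 s)
    (hs : f '' s = s) (q : ℕ) (hq : q.Prime) (x : U) (hx : x ∈ s) (hf : (f ^ q) x = x) :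
    f x = x := by
  by_contra hne
  set a : V := (f x : V) - x with ha
  have ha0 : a ≠ 0 := sub_ne_zero.2 (fun h => hne (Subtype.ext h))
  have hiter : ∀ i : ℕ, (f ^ i) x ∈ s := by
    intro i
    induction i with
    | zero => simpa using hx
    | succ i ih =>
      rw [pow_succ', Equiv.Perm.mul_apply, ← hs]
      exact mem_image_of_mem f ih
  have hle1 : ∀ i : ℕ, ‖(i : ℚ_[p]) • a‖ ≤ ‖a‖ := by
    intro i
    rw [norm_smul]
    have h1 : ‖(i : ℚ_[p])‖ ≤ 1 := by
      have := PadicInt.norm_le_one (i : ℤ_[p])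
      rwa [PadicInt.norm_def, PadicInt.coe_natCast] at this
    nlinarith [norm_nonneg a]
  have key : ∀ i : ℕ, ‖(((f ^ i) x : U) : V) - x - (i : ℚ_[p]) • a‖ ≤
      (p : ℝ) ^ (-2 : ℤ) * ‖a‖ := by
    intro i
    induction i with
    | zero =>
      have := p2pos (p := p)
      simp only [pow_zero, Equiv.Perm.coe_one, id, sub_self, Nat.cast_zero, zero_smul, norm_zero]
      positivity
    | succ i ih =>
      rw [pow_succ', Equiv.Perm.mul_apply]
      set y := (f ^ i) x with hy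
      have hys : y ∈ s := hiter i
      have e1 : (f y : V) - x - ((i + 1 : ℕ) : ℚ_[p]) • a =
          ((y : V) - x - (i : ℚ_[p]) • a) + (((f y : V) - f x) - ((y : V) - x)) := by
        rw [Nat.cast_add, Nat.cast_one, add_smul, one_smul]
        nth_rewrite 2 [ha]
        abel
      rw [e1]
      refine (umax _ _).trans (max_le ih ?_)
      have h1 := h.2.2 y hys x hx
      rw [one_mul, LinearMap.id_coe, id] at h1
      refine h1.trans (mul_le_mul_of_nonneg_left ?_ p2pos.le)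
      have e2 : (y : V) - x = ((y : V) - x - (i : ℚ_[p]) • a) + (i : ℚ_[p]) • a := by abel
      rw [e2]
      refine (umax _ _).trans (max_le (ih.trans ?_) (hle1 i))
      have := p2 (p := p)
      nlinarith [norm_nonneg a]
  have h3 := key q
  rw [hf, sub_self, zero_sub, norm_neg, norm_smul] at h3
  have h4 : ‖(q : ℚ_[p])‖ ≤ (p : ℝ) ^ (-2 : ℤ) :=
    le_of_mul_le_mul_right h3 (norm_pos_iff.2 ha0)
  have h4' : ‖(q : ℤ_[p])‖ ≤ (p : ℝ) ^ (-2 : ℤ) := by
    rwa [PadicInt.norm_def, PadicInt.coe_natCast]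
  have h5 : ((p : ℤ) ^ 2) ∣ (q : ℤ) := by
    rw [← PadicInt.norm_int_le_pow_iff_dvd (p := p) (k := (q : ℤ)) (n := 2)]
    exact_mod_cast h4'
  have h6 : p ^ 2 ∣ q := by exact_mod_cast h5
  have h7 : p ∣ q := (Dvd.intro_left p (by ring)).trans h6
  have h8 : p = q := (Nat.prime_dvd_prime_iff_eq hp.out hq).1 h7
  rw [h8] at h6
  have h9 := Nat.le_of_dvd hq.pos h6
  nlinarith [hq.two_le]

end conf

end Vale.Agent.P192.H503
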