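import Vale.Agent.P192.R2.H503.ConfMain

/-!
# P192: finitely generated periodic groups of conformal C1 bijections are finite
-/

namespace Vale.Agent.P192.H503

open Set Vale.Agent.P192.R2.H51L Topology

section conf

variable {p : ℕ} [hp : Fact p.Prime] {V : Type*} [NormedAddCommGroup V] [NormedSpace ℚ_[p] V]
  [IsUltrametricDist V] {U : Set V}

/-- a ball of an open set has two points -/
theorem cballs_two (p : ℕ) [Fact p.Prime] {V : Type*} [NormedAddCommGroup V]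
    [NormedSpace ℚ_[p] V] {U : Set V} [Nontrivial V] (hU : IsOpen U) {s : Set U}
    (hs : s ∈ cballs U) : ∃ x ∈ s, ∃ y ∈ s, x ≠ y := by
  obtain ⟨x, r, hr, rfl⟩ := hs
  have hne : (𝓝[≠] (x : V)).NeBot := Module.punctured_nhds_neBot ℚ_[p] V (x : V)
  have h1 : ∀ᶠ y in 𝓝[≠] (x : V), y ∈ U := mem_nhdsWithin_of_mem_nhds (hU.mem_nhds x.2)
  have h2 : ∀ᶠ y in 𝓝[≠] (x : V), y ∈ Metric.closedBall (x : V) r :=
    mem_nhdsWithin_of_mem_nhds (Metric.closedBall_mem_nhds _ hr)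
  have h3 : ∀ᶠ y in 𝓝[≠] (x : V), y ≠ (x : V) := self_mem_nhdsWithin
  obtain ⟨y, hyU, hyb, hyx⟩ := (h1.and (h2.and h3)).exists
  exact ⟨x, Metric.mem_closedBall_self hr.le, ⟨y, hyU⟩, hyb,
    fun h => hyx (congrArg Subtype.val h).symm⟩

/-- periodic similarities are isometries -/
theorem NS.one_of_periodic {g : Equiv.Perm U} {D : V →ₗ[ℚ_[p]] V} {c : ℝ} {s : Set U}
    (h : NS g D c s) (hs : g '' s = s) (hg : IsOfFinOrder g) {x y : U} (hx : x ∈ s) (hy : y ∈ s)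
    (hxy : x ≠ y) : c = 1 := by
  obtain ⟨n, hn, hgn⟩ := isOfFinOrder_iff_pow_eq_one.1 hg
  have key : ∀ i : ℕ, (g ^ i) x ∈ s ∧ (g ^ i) y ∈ s ∧
      ‖(((g ^ i) x : U) : V) - ((g ^ i) y : U)‖ = c ^ i * ‖(x : V) - y‖ := by
    intro i
    induction i with
    | zero => exact ⟨by simpa using hx, by simpa using hy, by simp⟩
    | succ i ih =>
      rw [pow_succ', Equiv.Perm.mul_apply, Equiv.Perm.mul_apply]
      refine ⟨?_, ?_, ?_⟩
      · rw [← hs]
        exact mem_image_of_mem g ih.1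
      · rw [← hs]
        exact mem_image_of_mem g ih.2.1
      · rw [h.norm ih.1 ih.2.1, ih.2.2]
        ring
  have h1 := (key n).2.2
  rw [hgn] at h1
  simp only [Equiv.Perm.coe_one, id] at h1
  have h2 : 0 < ‖(x : V) - y‖ := norm_pos_iff.2 (sub_ne_zero.2 (fun h => hxy (Subtype.ext h)))
  have h3 : c ^ n * ‖(x : V) - y‖ = 1 * ‖(x : V) - y‖ := by rw [← h1, one_mul]
  have h4 := mul_right_cancel₀ h2.ne' h3
  exact (pow_eq_one_iff_of_nonneg h.1.le hn.ne').1 h4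

/-- comparison of two near isometries -/
theorem NS.compare {g h : Equiv.Perm U} {D E : V →ₗ[ℚ_[p]] V} {s : Set U}
    (hg : NS g D 1 s) (hh : NS h E 1 s) (hgs : g '' s = s) (hhs : h '' s = s)
    (hDE : ∀ v, ‖D v - E v‖ ≤ (p : ℝ) ^ (-2 : ℤ) * ‖v‖) :
    NS (p := p) (g⁻¹ * h) LinearMap.id 1 s := by
  refine ⟨one_pos, fun v => by simp, fun y hy z hz => ?_⟩
  have hmem : ∀ y ∈ s, (g⁻¹ * h) y ∈ s := by
    intro y hy
    have h1 : h y ∈ g '' s := by
      rw [hgs, ← hhs]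
      exact mem_image_of_mem h hy
    obtain ⟨w, hw, hwy⟩ := h1
    rw [Equiv.Perm.mul_apply, ← hwy]
    simpa using hw
  have hgg : ∀ y, g ((g⁻¹ * h) y) = h y := fun y => by simp
  have h1 := hg.2.2 _ (hmem y hy) _ (hmem z hz)
  have h1' := hg.norm (hmem y hy) (hmem z hz)
  rw [hgg, hgg] at h1 h1'
  have h2 := hh.2.2 y hy z hz
  have h2' := hh.norm hy hz
  set a : V := (((g⁻¹ * h) y : U) : V) - ((g⁻¹ * h) z : U) with ha
  set b : V := (y : V) - z with hb
  rw [one_mul] at h1 h1' h2 h2' ⊢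
  have h3 : ‖a‖ = ‖b‖ := by rw [← h1', h2']
  rw [h3] at h1
  rw [LinearMap.id_coe, id]
  have h4 : D (a - b) = -((((h y : U) : V) - (h z : U)) - D a) +
      (((((h y : U) : V) - (h z : U)) - E b) + -(D b - E b)) := by
    rw [map_sub]
    abel
  have h5 : ‖D (a - b)‖ = ‖a - b‖ := by rw [hg.2.1, one_mul]
  rw [← h5, h4]
  refine (umax _ _).trans (max_le ?_ ((umax _ _).trans (max_le h2 ?_)))
  · rw [norm_neg]
    exact h1
  · rw [norm_neg]
    exact hDE b

theorem conf_main' [Nontrivial V] [FiniteDimensional ℚ_[p] V] [CompactSpace U] (hU : IsOpen U)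
    {Γ : Type*} [Group Γ] (hfg : Group.FG Γ) (hper : ∀ x : Γ, IsOfFinOrder x)
    (ρ : Γ →* Equiv.Perm U) (hC : ∀ g, IsConf p (ρ g)) : Finite ρ.range := by
  set S := confSys p V U with hS
  have hK : ρ.range.FG := (Group.fg_iff_subgroup_fg _).1 (Group.fg_range ρ)
  have hKt : ∀ k ∈ ρ.range, IsOfFinOrder k := by
    rintro _ ⟨x, rfl⟩
    exact MonoidHom.isOfFinOrder ρ (hper x)
  have hKc : ∀ k ∈ ρ.range, Cov S k := by
    rintro _ ⟨x, rfl⟩
    exact conf_cov hU (hC x) (by rw [← map_inv]; exact hC x⁻¹)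
  obtain ⟨hPf, hPu⟩ := parts_finite_cover S ρ.range hK hKt hKc
  have hfin : Finite (Parts S ρ.range) := hPf
  let α : Γ →* Equiv.Perm (Parts S ρ.range) := (actParts S ρ.range).comp ρ.rangeRestrict
  let N : Subgroup Γ := α.ker
  have hN : N.FiniteIndex := Subgroup.finiteIndex_ker α
  have hNP : ∀ g ∈ N, ∀ P ∈ Parts S ρ.range, (ρ g) '' P = P := by
    intro g hg P hP
    exact ker_image S ρ.range (ρ.rangeRestrict g) hg ⟨P, hP⟩
  let M : Subgroup Γ :=
    { carrier := {g | g ∈ N ∧ ∀ P ∈ Parts S ρ.range, NS (p := p) (ρ g) LinearMap.id 1 P}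
      one_mem' := ⟨one_mem _, fun P _ => by rw [map_one]; exact NS.one P⟩
      mul_mem' := by
        rintro a b ⟨ha, ha'⟩ ⟨hb, hb'⟩
        refine ⟨mul_mem ha hb, fun P hP => ?_⟩
        have h1 := (hb' P hP).mul (by rw [hNP b hb P hP]; exact ha' P hP)
        rw [map_mul]
        simpa using h1
      inv_mem' := by
        rintro a ⟨ha, ha'⟩
        refine ⟨inv_mem ha, fun P hP => ?_⟩
        have h1 := (ha' P hP).inv_id
        rw [hNP a ha P hP] at h1
        rwa [map_inv] }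
  have hM : M.FiniteIndex := by
    have h1 : ∀ (g : N) (P : Parts S ρ.range), ∃ D : V →ₗ[ℚ_[p]] V, NS (ρ g) D 1 P.1 := by
      intro g P
      obtain ⟨-, D, c, h2⟩ := P.2.1.2 (ρ g) ⟨g, rfl⟩
      obtain ⟨x, hx, y, hy, hxy⟩ := cballs_two p hU P.2.1.1
      have h3 := h2.one_of_periodic (hNP g g.2 P.1 P.2) (MonoidHom.isOfFinOrder ρ (hper g)) hx hy
        hxy
      rw [h3] at h2
      exact ⟨D, h2⟩
    choose D hD using h1
    have hprop : ProperSpace (V →L[ℚ_[p]] V) := FiniteDimensional.proper ℚ_[p] _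
    have hpp := p2pos (p := p)
    obtain ⟨T, -, hT, hcov⟩ := finite_cover_balls_of_compact
      (isCompact_closedBall (0 : V →L[ℚ_[p]] V) 1) (half_pos hpp)
    let L : N → Parts S ρ.range → V →L[ℚ_[p]] V := fun g P =>
      (D g P).mkContinuous 1 (fun v => by rw [(hD g P).2.1])
    have hL : ∀ g P, ∃ t : T, dist (L g P) t < (p : ℝ) ^ (-2 : ℤ) / 2 := by
      intro g P
      have h2 : L g P ∈ Metric.closedBall (0 : V →L[ℚ_[p]] V) 1 := by
        rw [mem_closedBall_zero_iff]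
        exact LinearMap.mkContinuous_norm_le _ zero_le_one _
      have h3 := hcov h2
      rw [mem_iUnion₂] at h3
      obtain ⟨t, ht, h4⟩ := h3
      exact ⟨⟨t, ht⟩, h4⟩
    choose F hF using hL
    have : Finite T := hT
    refine finiteIndex_of_map (κ := Parts S ρ.range → T) hN (fun g hg => hg.1) F ?_
    intro g h hgh
    refine ⟨mul_mem (inv_mem g.2) h.2, fun P hP => ?_⟩
    rw [map_mul, map_inv]
    refine (hD g ⟨P, hP⟩).compare (hD h ⟨P, hP⟩) (hNP g g.2 P hP) (hNP h h.2 P hP) (fun v => ?_)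
    have h2 := hF g ⟨P, hP⟩
    have h3 := hF h ⟨P, hP⟩
    rw [← congrFun hgh ⟨P, hP⟩] at h3
    have h4 : dist (L g ⟨P, hP⟩) (L h ⟨P, hP⟩) ≤ (p : ℝ) ^ (-2 : ℤ) := by
      have h5 := dist_triangle (L g ⟨P, hP⟩) (F g ⟨P, hP⟩ : V →L[ℚ_[p]] V) (L h ⟨P, hP⟩)
      rw [dist_comm (F g ⟨P, hP⟩ : V →L[ℚ_[p]] V)] at h5
      linarith
    rw [dist_eq_norm] at h4
    have h5 := (L g ⟨P, hP⟩ - L h ⟨P, hP⟩).le_of_opNorm_le h4 v
    exact h5
  refine finite_range_of_ker ρ hM (fun g hg => ?_)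
  rw [MonoidHom.mem_ker]
  by_contra hne
  have hfo : IsOfFinOrder (ρ g) := MonoidHom.isOfFinOrder ρ (hper g)
  set k := orderOf (ρ g) with hk
  have hk0 : 0 < k := hfo.orderOf_pos
  have hk1 : k ≠ 1 := fun h1 => hne (orderOf_eq_one_iff.1 h1)
  obtain ⟨q, hq, hqk⟩ := Nat.exists_prime_and_dvd hk1
  obtain ⟨m, hm⟩ := hqk
  have hm0 : m ≠ 0 := by
    rintro rfl
    omega
  have hmk : m < k := by
    rw [hm]
    have := hq.two_le
    have : 0 < m := Nat.pos_of_ne_zero hm0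
    nlinarith
  have h1 : (ρ g) ^ m ≠ 1 := pow_ne_one_of_lt_orderOf hm0 hmk
  apply h1
  have hgm : g ^ m ∈ M := pow_mem hg m
  ext1 x
  rw [← map_pow, Equiv.Perm.coe_one, id]
  have hxu : x ∈ ⋃₀ Parts S ρ.range := by rw [hPu]; exact mem_univ _
  obtain ⟨P, hP, hxP⟩ := hxu
  refine no_prime' (hgm.2 P hP) (hNP _ hgm.1 P hP) q hq x hxP ?_
  rw [map_pow, ← pow_mul, mul_comm m q, ← hm, hk, pow_orderOf_eq_one, Equiv.Perm.coe_one, id]

/-- **Finitely generated periodic groups of conformal C1 bijections.** -/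
theorem conf_main [FiniteDimensional ℚ_[p] V] (hU : IsOpen U) (hc : IsCompact U)
    {Γ : Type*} [Group Γ] (hfg : Group.FG Γ) (hper : ∀ x : Γ, IsOfFinOrder x)
    (ρ : Γ →* Equiv.Perm U) (hC : ∀ g, IsConf p (ρ g)) : Finite ρ.range := by
  rcases subsingleton_or_nontrivial V with hV | hV
  · infer_instance
  · have : CompactSpace U := isCompact_iff_compactSpace.1 hc
    exact conf_main' hU hfg hper ρ hC

end conf

end Vale.Agent.P192.H503
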