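import Vale.Agent.P192.R2.H503.Word
import Vale.Agent.P192.H124.Short

/-!
# P192: almost automorphisms: explicit forms
-/

namespace Vale.Agent.P192.H503

/-- Every homomorphism from a finitely generated periodic group to `G` has finite image. -/
def Bur (G : Type*) [Group G] : Prop :=
  ∀ (Γ : Type) [Group Γ], Group.FG Γ → (∀ x : Γ, IsOfFinOrder x) → ∀ f : Γ →* G, Finite f.range

theorem ConeSys.Def.mul {Ω : Type*} (D : ConeSys Ω) {n m : ℕ} {g h : Equiv.Perm Ω}
    (hg : D.Def n g) (hh : D.Def m h) : D.Def (n + m) (h * g) := by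
  intro a ha
  obtain ⟨b, hb, hbl⟩ := hg.step D (a := a) (by omega)
  obtain ⟨c, hc, -⟩ := hh.step D (a := b) (by omega)
  exact ⟨c, D.R_mul _ _ _ _ _ hb hc⟩

section

variable {X : Type} [Finite X] (A : Subgroup (Equiv.Perm (List X)))

/-- the group of all bijections which are locally given by prefix replacement and `A` -/
theorem exists_V (hA1 : ∀ a ∈ A, ∀ w, (a w).length = w.length)
    (hA2 : ∀ a ∈ A, ∀ v, ∃ k ∈ A, ∀ w, a (v ++ w) = a v ++ k w) :
    ∃ V : Subgroup (Equiv.Perm (ℕ → X)), ∀ g, g ∈ V ↔ ∃ n, ∀ v : List X, v.length = n →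
      ∃ u, WR A g v u := by
  rcases subsingleton_or_nontrivial X with hX | hX
  · have hs : Subsingleton (Equiv.Perm (ℕ → X)) := inferInstance
    refine ⟨⊤, fun g => ⟨fun _ => ?_, fun _ => trivial⟩⟩
    rw [Subsingleton.elim g 1]
    exact ⟨0, fun v _ => ⟨v, 1, one_mem _, fun ξ w => by simp⟩⟩
  · let D := wordSys A hA1 hA2
    have hinv : ∀ g : Equiv.Perm (ℕ → X), (∃ n, D.Def n g) → ∃ n, D.Def n g⁻¹ := by
      rintro g ⟨n, hn⟩
      -- the images of the cylinders of depth `n` cover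
      have hn' : ∀ v : {v : List X // v.length = n}, ∃ u, WR A g v.1 u := fun v => hn v.1 v.2
      choose u hu using hn'
      have hfin : Finite {v : List X // v.length = n} := (List.finite_length_eq X n).to_subtype
      obtain ⟨M, hM⟩ : ∃ M, ∀ v, (u v).length ≤ M := by
        obtain ⟨M, hM⟩ := (Set.finite_range (fun v => (u v).length)).bddAbove
        exact ⟨M, fun v => hM ⟨v, rfl⟩⟩
      refine ⟨M, fun w hw => ?_⟩
      change w.length = M at hw
      have : Inhabited X := Classical.inhabited_of_nonempty inferInstance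
      obtain ⟨ξ, hξ⟩ := exists_beg w
      have h1 := beg_take (g⁻¹ ξ) n
      set v : {v : List X // v.length = n} := ⟨List.ofFn (fun i : Fin n => g⁻¹ ξ i), by simp⟩
        with hv
      obtain ⟨a, ha, hga⟩ := hu v
      have h2 : Beg (u v) ξ := by
        have h3 := (hga (g⁻¹ ξ) []).1 (by rw [List.append_nil]; exact h1)
        have h4 : a [] = [] := List.length_eq_zero_iff.1 (by rw [hA1 a ha]; rfl)
        simpa [h4] using h3
      have h3 : u v <+: w := h2.isPfx hξ (by rw [hw]; exact hM v)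
      obtain ⟨b, -, hb, -⟩ := D.R_res g⁻¹ (u v) v.1 w (D.R_inv _ _ _ ⟨a, ha, hga⟩) h3
      exact ⟨b, hb⟩
    let V : Subgroup (Equiv.Perm (ℕ → X)) :=
      { carrier := {g | ∃ n, D.Def n g}
        one_mem' := ⟨0, fun a _ => ⟨a, D.R_refl a⟩⟩
        mul_mem' := by
          rintro h g ⟨m, hm⟩ ⟨n, hn⟩
          exact ⟨n + m, hn.mul D hm⟩
        inv_mem' := fun {g} hg => hinv g hg }
    exact ⟨V, fun g => Iff.rfl⟩

theorem fg_of_fp' {Γ : Type*} [Group Γ] (h : Group.IsFinitelyPresented Γ) : Group.FG Γ := by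
  obtain ⟨n, ψ, hψ, -⟩ := h.out
  exact Group.fg_of_surjective hψ

theorem V_fpb (hA1 : ∀ a ∈ A, ∀ w, (a w).length = w.length)
    (hA2 : ∀ a ∈ A, ∀ v, ∃ k ∈ A, ∀ w, a (v ++ w) = a v ++ k w)
    (V : Subgroup (Equiv.Perm (ℕ → X))) (hV : ∀ g ∈ V, ∃ n, ∀ v : List X, v.length = n →
      ∃ u, WR A g v u) (hA : FPB A) : FPB V := by
  intro Γ _ hΓ hper f
  have hfin : Finite (V.subtype.comp f).range := by
    refine word_main A hA1 hA2 (fg_of_fp' hΓ) hper (fun N hN φ => ?_) (V.subtype.comp f)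
      (fun g => hV _ (f g).2)
    exact hA N (fp_of_finiteIndex Γ N) (fun x =>
      (N.subtype_injective.isOfFinOrder_iff (x := x) (f := N.subtype)).1 (hper (x : Γ))) φ
  have : (V.subtype.comp f).range = f.range.map V.subtype := by
    rw [MonoidHom.range_eq_map, MonoidHom.range_eq_map, Subgroup.map_map]
  rw [this] at hfin
  exact Finite.of_equiv _ (f.range.equivMapOfInjective V.subtype V.subtype_injective).symm.toEquiv

theorem V_bur (hA1 : ∀ a ∈ A, ∀ w, (a w).length = w.length)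
    (hA2 : ∀ a ∈ A, ∀ v, ∃ k ∈ A, ∀ w, a (v ++ w) = a v ++ k w)
    (V : Subgroup (Equiv.Perm (ℕ → X))) (hV : ∀ g ∈ V, ∃ n, ∀ v : List X, v.length = n →
      ∃ u, WR A g v u) (hA : Bur A) : Bur V := by
  intro Γ _ hΓ hper f
  have hfin : Finite (V.subtype.comp f).range := by
    refine word_main A hA1 hA2 hΓ hper (fun N hN φ => ?_) (V.subtype.comp f)
      (fun g => hV _ (f g).2)
    have h1 : Group.FG N := Subgroup.fg_of_index_ne_zero N
    exact hA N h1 (fun x =>
      (N.subtype_injective.isOfFinOrder_iff (x := x) (f := N.subtype)).1 (hper (x : Γ))) φ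
  have : (V.subtype.comp f).range = f.range.map V.subtype := by
    rw [MonoidHom.range_eq_map, MonoidHom.range_eq_map, Subgroup.map_map]
  rw [this] at hfin
  exact Finite.of_equiv _ (f.range.equivMapOfInjective V.subtype V.subtype_injective).symm.toEquiv

end

/-- residual finiteness of the image -/
theorem eq_residual {Ω : Type*} (E : ℕ → Setoid Ω) (hdec : ∀ n x y, E (n + 1) x y → E n x y)
    (hfin : ∀ n, Finite (Quotient (E n))) (hsep : ∀ x y, (∀ n, E n x y) → x = y)
    {Γ : Type*} [Group Γ] (ρ : Γ →* Equiv.Perm Ω) {r : ℕ} {N : Subgroup Γ} (hN : N.FiniteIndex)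
    (h : ∀ g ∈ N, ∀ x, E r x (ρ g x) ∧ ∀ k y, r ≤ k → (E k x y ↔ E k (ρ g x) (ρ g y))) (g : Γ)
    (hg : ρ g ≠ 1) : ∃ K : Subgroup Γ, K.Normal ∧ K.FiniteIndex ∧ g ∉ K := by
  -- a point which is moved
  obtain ⟨x, hx⟩ : ∃ x, ρ g x ≠ x := by
    by_contra hc
    push Not at hc
    exact hg (Equiv.ext hc)
  obtain ⟨k, hk⟩ : ∃ k, ¬ E k x (ρ g x) := by
    by_contra hc
    push Not at hc
    exact hx (hsep _ _ hc).symm
  set m := max k r with hm
  have hkm : ¬ E m x (ρ g x) := fun h' => hk (e_mono hdec (le_max_left _ _) h')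
  let M : Subgroup Γ :=
    { carrier := {g | g ∈ N ∧ ∀ x, E m x (ρ g x)}
      one_mem' := ⟨one_mem _, fun x => by simp⟩
      mul_mem' := by
        rintro a b ⟨ha, ha'⟩ ⟨hb, hb'⟩
        refine ⟨mul_mem ha hb, fun x => ?_⟩
        rw [map_mul, Equiv.Perm.mul_apply]
        exact (E m).trans (hb' x) (ha' _)
      inv_mem' := by
        rintro a ⟨ha, ha'⟩
        refine ⟨inv_mem ha, fun x => ?_⟩
        have := ha' (ρ a⁻¹ x)
        rw [← Equiv.Perm.mul_apply, ← map_mul, mul_inv_cancel, map_one, Equiv.Perm.one_apply] at this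
        exact (E m).symm this }
  have := hfin m
  have hM : M.FiniteIndex := by
    refine finiteIndex_of_map (κ := Quotient (E m) → Quotient (E m)) hN (fun g hg => hg.1)
      (fun g => Quotient.map (ρ g) (fun x y hxy => ((h g g.2 x).2 m y (le_max_right _ _)).1 hxy)) ?_
    intro a b hab
    refine ⟨mul_mem (inv_mem a.2) b.2, fun y => ?_⟩
    have h1 := congrFun hab (Quotient.mk _ y)
    have h2 : E m (ρ a y) (ρ b y) := Quotient.exact h1
    have h3 := ((h _ (inv_mem a.2) (ρ a y)).2 m (ρ b y) (le_max_right _ _)).1 h2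
    rw [← Equiv.Perm.mul_apply, ← map_mul, ← Equiv.Perm.mul_apply, ← map_mul, inv_mul_cancel,
      map_one, Equiv.Perm.one_apply] at h3
    exact h3
  exact ⟨M.normalCore, inferInstance, inferInstance,
    fun hgM => hkm ((M.normalCore_le hgM).2 x)⟩

end Vale.Agent.P192.H503
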