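import Vale.Agent.P192.R2.H503.Sys

/-!
# P192: periodic groups of strictly differentiable bijections of the p-adic integers
-/

namespace Vale.Agent.P192.H503

section padic

variable (p : ℕ) [hp : Fact p.Prime]

theorem p1 : (1 : ℝ) < p := by exact_mod_cast hp.out.one_lt

/-- congruence modulo `p ^ n` -/
def PE (n : ℕ) : Setoid ℤ_[p] where
  r x y := ‖x - y‖ ≤ (p : ℝ) ^ (-(n : ℤ))
  iseqv := by
    refine ⟨fun x => ?_, fun {x y} h => ?_, fun {x y z} h1 h2 => ?_⟩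
    · rw [sub_self, norm_zero]
      have := p1 p
      positivity
    · rw [← norm_neg, neg_sub]
      exact h
    · have := PadicInt.nonarchimedean (x - y) (y - z)
      rw [sub_add_sub_cancel] at this
      exact this.trans (max_le h1 h2)

variable {p}

theorem PE_iff {n : ℕ} {x y : ℤ_[p]} : PE p n x y ↔ ‖x - y‖ ≤ (p : ℝ) ^ (-(n : ℤ)) := Iff.rfl

theorem PE_iff_zmod {n : ℕ} {x y : ℤ_[p]} :
    PE p n x y ↔ PadicInt.toZModPow n x = PadicInt.toZModPow n y := by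
  rw [PE_iff, PadicInt.norm_le_pow_iff_mem_span_pow, ← PadicInt.ker_toZModPow,
    RingHom.mem_ker, map_sub, sub_eq_zero]

theorem pe_dec (n : ℕ) (x y : ℤ_[p]) (h : PE p (n + 1) x y) : PE p n x y := by
  rw [PE_iff] at h ⊢
  refine h.trans (zpow_le_zpow_right₀ (p1 p).le ?_)
  push_cast
  omega

theorem pe_fin (n : ℕ) : Finite (Quotient (PE p n)) := by
  have : NeZero (p ^ n) := ⟨pow_ne_zero _ hp.out.ne_zero⟩
  refine Finite.of_injective (β := ZMod (p ^ n))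
    (Quotient.lift (fun x => PadicInt.toZModPow n x) (fun x y h => PE_iff_zmod.1 h)) ?_
  intro a b
  obtain ⟨x, rfl⟩ := Quotient.exists_rep a
  obtain ⟨y, rfl⟩ := Quotient.exists_rep b
  intro h
  exact Quotient.sound (PE_iff_zmod.2 h)

theorem pe_sep (x y : ℤ_[p]) (h : ∀ n, PE p n x y) : x = y :=
  PadicInt.ext_of_toZModPow.1 (fun n => PE_iff_zmod.1 (h n))

theorem pe_perf (n : ℕ) (x : ℤ_[p]) : ∃ y, PE p n x y ∧ y ≠ x := by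
  refine ⟨x + (p : ℤ_[p]) ^ n, ?_, ?_⟩
  · rw [PE_iff, sub_add_cancel_left, norm_neg, PadicInt.norm_p_pow]
  · intro h
    have := add_eq_left.1 h
    exact pow_ne_zero n (by exact_mod_cast hp.out.ne_zero) this

/-- strictly differentiable, with nonzero derivative everywhere -/
def IsC1 (f : ℤ_[p] → ℤ_[p]) : Prop :=
  ∀ x, ∃ D : ℚ_[p], D ≠ 0 ∧ ∀ ε : ℝ, 0 < ε → ∃ δ : ℝ, 0 < δ ∧ ∀ y z : ℤ_[p],
    ‖y - x‖ < δ → ‖z - x‖ < δ →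
      ‖((f y : ℚ_[p]) - (f z : ℚ_[p])) - D * ((y : ℚ_[p]) - (z : ℚ_[p]))‖ ≤ ε * ‖y - z‖

/-- nearly affine on a set: relative error `p ^ -2` -/
def Aff (f : ℤ_[p] → ℤ_[p]) (D : ℚ_[p]) (s : ℤ_[p] → Prop) : Prop :=
  ∀ x y, s x → s y → ‖((f x : ℚ_[p]) - (f y : ℚ_[p])) - D * ((x : ℚ_[p]) - (y : ℚ_[p]))‖ ≤
    (p : ℝ) ^ (-2 : ℤ) * (‖D‖ * ‖x - y‖)

theorem p2 : (p : ℝ) ^ (-2 : ℤ) < 1 := zpow_lt_one_of_neg₀ (p1 p) (by norm_num)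

theorem p2pos : 0 < (p : ℝ) ^ (-2 : ℤ) := by
  have := p1 p
  positivity

theorem nsub (x y : ℤ_[p]) : ‖(x : ℚ_[p]) - (y : ℚ_[p])‖ = ‖x - y‖ := by
  rw [← PadicInt.coe_sub, PadicInt.norm_def]

theorem Aff.norm {f : ℤ_[p] → ℤ_[p]} {D : ℚ_[p]} {s : ℤ_[p] → Prop} (h : Aff f D s)
    {x y : ℤ_[p]} (hx : s x) (hy : s y) : ‖f x - f y‖ = ‖D‖ * ‖x - y‖ := by
  have h1 := h x y hx hy
  rcases eq_or_ne (‖D‖ * ‖x - y‖) 0 with h0 | h0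
  · rw [h0, mul_zero] at h1
    have h2 := norm_le_zero_iff.1 h1
    have h3 : ‖D * ((x : ℚ_[p]) - (y : ℚ_[p]))‖ = 0 := by rw [norm_mul, nsub, h0]
    rw [sub_eq_zero] at h2
    rw [← nsub, h2, h3, h0]
  · have hpos : 0 < ‖D‖ * ‖x - y‖ := lt_of_le_of_ne (by positivity) h0.symm
    have h2 : ‖D * ((x : ℚ_[p]) - (y : ℚ_[p]))‖ = ‖D‖ * ‖x - y‖ := by rw [norm_mul, nsub]
    have h3 : ‖((f x : ℚ_[p]) - (f y : ℚ_[p])) - D * ((x : ℚ_[p]) - (y : ℚ_[p]))‖ <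
        ‖D * ((x : ℚ_[p]) - (y : ℚ_[p]))‖ := by
      rw [h2]
      refine h1.trans_lt ?_
      nlinarith [p2 (p := p)]
    rw [← nsub]
    have h4 := Padic.add_eq_max_of_ne (ne_of_lt h3)
    rw [sub_add_cancel] at h4
    rw [h4, max_eq_right h3.le, h2]

theorem Aff.comp {f g : ℤ_[p] → ℤ_[p]} {D D' : ℚ_[p]} {s t : ℤ_[p] → Prop} (h : Aff f D s)
    (h' : Aff g D' t) (hst : ∀ x, s x → t (f x)) : Aff (fun x => g (f x)) (D' * D) s := by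
  intro x y hx hy
  have h1 := h x y hx hy
  have h2 := h' (f x) (f y) (hst x hx) (hst y hy)
  rw [h.norm hx hy] at h2
  have h3 : ((g (f x) : ℚ_[p]) - (g (f y) : ℚ_[p])) - D' * D * ((x : ℚ_[p]) - (y : ℚ_[p])) =
      (((g (f x) : ℚ_[p]) - (g (f y) : ℚ_[p])) - D' * ((f x : ℚ_[p]) - (f y : ℚ_[p]))) +
      D' * (((f x : ℚ_[p]) - (f y : ℚ_[p])) - D * ((x : ℚ_[p]) - (y : ℚ_[p]))) := by ring
  rw [h3]
  refine (Padic.nonarchimedean _ _).trans (max_le ?_ ?_)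
  · rw [norm_mul, mul_assoc]
    exact h2
  · rw [norm_mul, norm_mul]
    calc ‖D'‖ * ‖((f x : ℚ_[p]) - (f y : ℚ_[p])) - D * ((x : ℚ_[p]) - (y : ℚ_[p]))‖ ≤
        ‖D'‖ * ((p : ℝ) ^ (-2 : ℤ) * (‖D‖ * ‖x - y‖)) :=
          mul_le_mul_of_nonneg_left h1 (norm_nonneg _)
      _ = _ := by ring

theorem Aff.inv {f g : ℤ_[p] → ℤ_[p]} {D : ℚ_[p]} (hD : D ≠ 0) {s t : ℤ_[p] → Prop}
    (h : Aff f D s) (hg : ∀ x, t x → s (g x) ∧ f (g x) = x) : Aff g D⁻¹ t := by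
  intro x y hx hy
  obtain ⟨hx1, hx2⟩ := hg x hx
  obtain ⟨hy1, hy2⟩ := hg y hy
  have h1 := h _ _ hx1 hy1
  have h2 := h.norm hx1 hy1
  rw [hx2, hy2] at h1 h2
  have h3 : ((g x : ℚ_[p]) - (g y : ℚ_[p])) - D⁻¹ * ((x : ℚ_[p]) - (y : ℚ_[p])) =
      -(D⁻¹ * (((x : ℚ_[p]) - (y : ℚ_[p])) - D * ((g x : ℚ_[p]) - (g y : ℚ_[p])))) := by
    field_simp
    ring
  have hD' : 0 < ‖D‖ := norm_pos_iff.2 hD
  rw [h3, norm_neg, norm_mul, norm_inv, h2]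
  calc ‖D‖⁻¹ * ‖((x : ℚ_[p]) - (y : ℚ_[p])) - D * ((g x : ℚ_[p]) - (g y : ℚ_[p]))‖ ≤
      ‖D‖⁻¹ * ((p : ℝ) ^ (-2 : ℤ) * (‖D‖ * ‖g x - g y‖)) :=
        mul_le_mul_of_nonneg_left h1 (by positivity)
    _ = _ := by ring

theorem Aff.one (s : ℤ_[p] → Prop) : Aff (fun x => x) 1 s := by
  intro x y _ _
  rw [one_mul, sub_self, norm_zero]
  have := p2pos (p := p)
  positivity

end padic

end Vale.Agent.P192.H503
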