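import Vale.Agent.P192.R2.H503.Padic

/-!
# P192: the system of balls of the p-adic integers
-/

namespace Vale.Agent.P192.H503

section padic

variable (p : ℕ) [hp : Fact p.Prime]

/-- the class as a predicate -/
def cls (a : Σ n, Quotient (PE p n)) (x : ℤ_[p]) : Prop := Quotient.mk (PE p a.1) x = a.2

/-- nearly affine with the right scale -/
def PQ (g : Equiv.Perm ℤ_[p]) (a b : Σ n, Quotient (PE p n)) : Prop :=
  ∃ D : ℚ_[p], ‖D‖ = (p : ℝ) ^ ((a.1 : ℤ) - (b.1 : ℤ)) ∧ Aff (fun x => g x) D (cls p a)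

/-- the system of balls -/
def padicSys : ConeSys.{0, 0} ℤ_[p] :=
  (eqSys (PE p) pe_dec pe_fin pe_sep pe_perf).withQ (PQ p)
    (fun a => ⟨1, by simp, Aff.one _⟩)
    (by
      rintro g h a b c h1 h2 ⟨D, hD, hA⟩ ⟨D', hD', hA'⟩
      refine ⟨D' * D, ?_, ?_⟩
      · have := p1 p
        rw [norm_mul, hD, hD', ← zpow_add₀ (by positivity)]
        congr 1
        ring
      · exact hA.comp hA' (fun x hx => (h1.1 x).1 hx))
    (by
      rintro g a b h ⟨D, hD, hA⟩
      have hp1 := p1 p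
      have hD0 : D ≠ 0 := by
        intro h0
        rw [h0, norm_zero] at hD
        have : (0 : ℝ) < (p : ℝ) ^ ((a.1 : ℤ) - (b.1 : ℤ)) := by positivity
        linarith
      refine ⟨D⁻¹, ?_, ?_⟩
      · rw [norm_inv, hD, ← zpow_neg]
        congr 1
        ring
      · refine hA.inv hD0 (fun x hx => ⟨?_, ?_⟩)
        · have := (h.1 (g⁻¹ x)).2
          rw [Equiv.Perm.coe_inv, Equiv.apply_symm_apply] at this
          exact this hx
        · simp)
    (by
      rintro g a b a' b' h ⟨D, hD, hA⟩ ha hb h' hl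
      refine ⟨D, ?_, fun x y hx hy => hA x y (ha.2 x hx) (ha.2 y hy)⟩
      rw [hD]
      congr 1
      change b'.1 + a.1 = a'.1 + b.1 at hl
      omega)

variable {p}

/-- uniform form of strict differentiability -/
theorem IsC1.unif {f : ℤ_[p] → ℤ_[p]} (h : IsC1 f) : ∃ n J : ℕ, ∀ x, ∃ D : ℚ_[p],
    D ≠ 0 ∧ (p : ℝ) ^ (-(J : ℤ)) ≤ ‖D‖ ∧ ‖D‖ ≤ (p : ℝ) ^ (J : ℤ) ∧ Aff f D (fun y => PE p n x y) := by
  have hp1 := p1 p
  have h0 : ∀ x, ∃ D : ℚ_[p], ∃ δ : ℝ, ∃ n J : ℕ, D ≠ 0 ∧ 0 < δ ∧ (p : ℝ) ^ (-(n : ℤ)) < δ ∧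
      (p : ℝ) ^ (-(J : ℤ)) ≤ ‖D‖ ∧ ‖D‖ ≤ (p : ℝ) ^ (J : ℤ) ∧
      Aff f D (fun y => ‖y - x‖ < δ) := by
    intro x
    obtain ⟨D, hD, hε⟩ := h x
    have hDn : 0 < ‖D‖ := norm_pos_iff.2 hD
    obtain ⟨δ, hδ, hA⟩ := hε ((p : ℝ) ^ (-2 : ℤ) * ‖D‖) (mul_pos p2pos hDn)
    obtain ⟨n, hn⟩ := exists_pow_lt_of_lt_one hδ (inv_lt_one_of_one_lt₀ hp1)
    obtain ⟨J1, hJ1⟩ := exists_pow_lt_of_lt_one hDn (inv_lt_one_of_one_lt₀ hp1)
    obtain ⟨J2, hJ2⟩ := pow_unbounded_of_one_lt ‖D‖ hp1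
    refine ⟨D, δ, n, J1 + J2, hD, hδ, ?_, ?_, ?_, ?_⟩
    · rwa [zpow_neg, zpow_natCast, ← inv_pow]
    · refine le_trans ?_ hJ1.le
      rw [inv_pow, ← zpow_natCast, ← zpow_neg]
      refine zpow_le_zpow_right₀ hp1.le ?_
      push_cast
      omega
    · refine hJ2.le.trans ?_
      rw [zpow_natCast]
      exact pow_le_pow_right₀ hp1.le (by omega)
    · intro y z hy hz
      have := hA y z hy hz
      rwa [mul_assoc] at this
  choose D δ n J hD hδ hn hJ1 hJ2 hA using h0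
  obtain ⟨t, ht⟩ := CompactSpace.elim_nhds_subcover (fun x => Metric.ball x (δ x))
    (fun x => Metric.ball_mem_nhds x (hδ x))
  refine ⟨t.sup n, t.sup J, fun x => ?_⟩
  have hx : x ∈ ⋃ i ∈ t, Metric.ball i (δ i) := by rw [ht]; trivial
  simp only [Set.mem_iUnion, Metric.mem_ball, dist_eq_norm] at hx
  obtain ⟨i, hi, hxi⟩ := hx
  have h1 : n i ≤ t.sup n := Finset.le_sup hi
  have h2 : J i ≤ t.sup J := Finset.le_sup hi
  refine ⟨D i, hD i, ?_, ?_, ?_⟩
  · refine le_trans ?_ (hJ1 i)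
    refine zpow_le_zpow_right₀ hp1.le ?_
    omega
  · refine (hJ2 i).trans ?_
    refine zpow_le_zpow_right₀ hp1.le ?_
    omega
  · have key : ∀ y, PE p (t.sup n) x y → ‖y - i‖ < δ i := by
      intro y hy
      have h3 : ‖x - y‖ < δ i := by
        refine lt_of_le_of_lt ?_ (hn i)
        refine (PE_iff.1 hy).trans ?_
        refine zpow_le_zpow_right₀ hp1.le ?_
        omega
      have h4 : y - i = (y - x) + (x - i) := by ring
      rw [h4]
      refine lt_of_le_of_lt (PadicInt.nonarchimedean _ _) (max_lt ?_ hxi)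
      rwa [← norm_neg, neg_sub]
    intro y z hy hz
    exact hA i y z (key y hy) (key z hz)

/-- strictly differentiable bijections are locally similarities -/
theorem padic_def {g : Equiv.Perm ℤ_[p]} (h : IsC1 (fun x => g x))
    (h' : IsC1 (fun x => g⁻¹ x)) : ∃ n, (padicSys p).Def n g := by
  have hp1 := p1 p
  have hp0 : (0 : ℝ) < p := by positivity
  obtain ⟨n1, J1, hu⟩ := h.unif
  obtain ⟨n2, J2, hu'⟩ := h'.unif
  refine ⟨n1 + n2 + J1, ?_⟩
  set n := n1 + n2 + J1 with hn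
  rintro ⟨n', c⟩ hn'
  change n' = n at hn'
  subst hn'
  obtain ⟨x, rfl⟩ := Quotient.exists_rep c
  obtain ⟨D, hD, hJ1, hJ1', hA⟩ := hu x
  -- the scale
  have hval := Padic.norm_eq_zpow_neg_valuation hD
  set v := D.valuation with hv
  have hv1 : -(J1 : ℤ) ≤ v := by
    rw [hval] at hJ1'
    have := (zpow_le_zpow_iff_right₀ hp1).1 hJ1'
    omega
  obtain ⟨m, hm⟩ : ∃ m : ℕ, (m : ℤ) = n + v := ⟨(n + v).toNat, by omega⟩
  have hm2 : n2 ≤ m := by omega
  have hA' : Aff (fun x => g x) D (fun y => PE p n x y) := by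
    intro y z hy hz
    exact hA y z (e_mono pe_dec (by omega) hy) (e_mono pe_dec (by omega) hz)
  have hDn : ‖D‖ = (p : ℝ) ^ ((n : ℤ) - m) := by
    rw [hval]
    congr 1
    omega
  have hDpos : 0 < ‖D‖ := norm_pos_iff.2 hD
  -- scaling of balls
  have hfor : ∀ y z k, PE p n x y → (PE p (n + k) y z → PE p (m + k) (g y) (g z)) := by
    intro y z k hy hyz
    have hz : PE p n x z := (PE p n).trans hy (e_mono pe_dec (by omega) hyz)
    have := hA'.norm hy hz
    rw [PE_iff] at hyz ⊢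
    rw [this, hDn]
    calc (p : ℝ) ^ ((n : ℤ) - m) * ‖y - z‖ ≤ (p : ℝ) ^ ((n : ℤ) - m) *
          (p : ℝ) ^ (-((n + k : ℕ) : ℤ)) := mul_le_mul_of_nonneg_left hyz (by positivity)
      _ = _ := by
        rw [← zpow_add₀ hp0.ne']
        congr 1
        push_cast
        ring
  have hback : ∀ y z k, PE p n x y → (PE p (m + k) (g y) (g z) → PE p (n + k) y z) := by
    intro y z k hy hyz
    obtain ⟨D', hD', -, -, hB⟩ := hu' (g y)
    -- compare the two derivatives
    obtain ⟨y', hy', hne⟩ := pe_perf n y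
    have e1 := hA'.norm hy ((PE p n).trans hy hy')
    have e2 : PE p n2 (g y) (g y') := by
      have := hfor y y' 0 hy hy'
      exact e_mono pe_dec hm2 this
    have e3 := hB.norm ((PE p n2).refl (g y)) e2
    simp only [Equiv.Perm.coe_inv, Equiv.symm_apply_apply] at e3
    rw [e1, ← mul_assoc] at e3
    have e4 : 0 < ‖y - y'‖ := norm_pos_iff.2 (sub_ne_zero.2 hne.symm)
    have e5 : ‖D'‖ * ‖D‖ = 1 := by
      have : (‖D'‖ * ‖D‖) * ‖y - y'‖ = 1 * ‖y - y'‖ := by rw [one_mul, ← e3]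
      exact mul_right_cancel₀ e4.ne' this
    have e6 : PE p n2 (g y) (g z) := e_mono pe_dec (by omega) hyz
    have e7 := hB.norm ((PE p n2).refl (g y)) e6
    simp only [Equiv.Perm.coe_inv, Equiv.symm_apply_apply] at e7
    have e8 : ‖D'‖ = (p : ℝ) ^ ((m : ℤ) - n) := by
      have : ‖D'‖ = ‖D‖⁻¹ := eq_inv_of_mul_eq_one_left e5
      rw [this, hDn, ← zpow_neg]
      congr 1
      ring
    rw [PE_iff] at hyz ⊢
    rw [e7, e8]
    calc (p : ℝ) ^ ((m : ℤ) - n) * ‖g y - g z‖ ≤ (p : ℝ) ^ ((m : ℤ) - n) *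
          (p : ℝ) ^ (-((m + k : ℕ) : ℤ)) := mul_le_mul_of_nonneg_left hyz (by positivity)
      _ = _ := by
        rw [← zpow_add₀ hp0.ne']
        congr 1
        push_cast
        ring
  refine ⟨⟨m, Quotient.mk (PE p m) (g x)⟩, ⟨fun y => ?_, fun y z k hy => ?_⟩, D, hDn, ?_⟩
  · rw [mk_eq, mk_eq]
    constructor
    · intro h
      exact (PE p m).symm (hfor x y 0 ((PE p n).refl x) ((PE p n).symm h))
    · intro h
      exact (PE p n).symm (hback x y 0 ((PE p n).refl x) ((PE p m).symm h))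
  · have hy' := (PE p n).symm (mk_eq.1 hy)
    exact ⟨hfor y z k hy', hback y z k hy'⟩
  · intro y z hy hz
    exact hA' y z ((PE p n).symm (mk_eq.1 hy)) ((PE p n).symm (mk_eq.1 hz))

/-- a map nearly tangent to the identity on the balls which it preserves has no points of
prime order -/
theorem no_prime {f : ℤ_[p] → ℤ_[p]} {r : ℕ} (h1 : ∀ x, PE p r x (f x))
    (h2 : ∀ x y, PE p r x y → ‖(f x - f y) - (x - y)‖ ≤ (p : ℝ) ^ (-2 : ℤ) * ‖x - y‖) (q : ℕ)
    (hq : q.Prime) (hf : ∀ x, f^[q] x = x) (x : ℤ_[p]) : f x = x := by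
  by_contra hne
  set a := f x - x with ha
  have ha0 : a ≠ 0 := sub_ne_zero.2 hne
  have hiter : ∀ i, PE p r x (f^[i] x) := by
    intro i
    induction i with
    | zero => exact (PE p r).refl x
    | succ i ih =>
      rw [Function.iterate_succ_apply']
      exact (PE p r).trans ih (h1 _)
  have key : ∀ i : ℕ, ‖f^[i] x - x - i * a‖ ≤ (p : ℝ) ^ (-2 : ℤ) * ‖a‖ := by
    intro i
    induction i with
    | zero =>
      simp only [Function.iterate_zero, id, sub_self, Nat.cast_zero, zero_mul, norm_zero]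
      have := p2pos (p := p)
      positivity
    | succ i ih =>
      rw [Function.iterate_succ_apply']
      set y := f^[i] x with hy
      have e1 : f y - x - ((i + 1 : ℕ) : ℤ_[p]) * a =
          (y - x - i * a) + ((f y - f x) - (y - x)) := by
        rw [ha]
        push_cast
        ring
      rw [e1]
      refine (PadicInt.nonarchimedean _ _).trans (max_le ih ?_)
      refine (h2 y x ((PE p r).symm (hiter i))).trans ?_
      refine mul_le_mul_of_nonneg_left ?_ p2pos.le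
      have e2 : y - x = (y - x - i * a) + i * a := by ring
      rw [e2]
      refine (PadicInt.nonarchimedean _ _).trans (max_le ?_ ?_)
      · refine ih.trans ?_
        have := p2 (p := p)
        nlinarith [norm_nonneg a]
      · rw [norm_mul]
        have := PadicInt.norm_le_one (i : ℤ_[p])
        nlinarith [norm_nonneg a]
  have h3 := key q
  rw [hf, sub_self, zero_sub, norm_neg, norm_mul] at h3
  have h4 : ‖(q : ℤ_[p])‖ ≤ (p : ℝ) ^ (-2 : ℤ) :=
    le_of_mul_le_mul_right h3 (norm_pos_iff.2 ha0)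
  have h5 : ((p : ℤ) ^ 2) ∣ (q : ℤ) := by
    rw [← PadicInt.norm_int_le_pow_iff_dvd (p := p) (k := (q : ℤ)) (n := 2)]
    exact_mod_cast h4
  have h6 : p ^ 2 ∣ q := by exact_mod_cast h5
  have h7 : p ∣ q := (Dvd.intro_left p (by ring)).trans h6
  have h8 : p = q := (Nat.prime_dvd_prime_iff_eq hp.out hq).1 h7
  rw [h8] at h6
  have h9 := Nat.le_of_dvd hq.pos h6
  nlinarith [hq.two_le]

end padic

end Vale.Agent.P192.H503
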