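import Vale.Agent.P192.R2.H503.LF.Resid
import Vale.Agent.P192.R2.H503.Final
import Vale.Agent.P192.H124.InfExplicit
import Vale.Agent.P192.H826.RelPoly

/-!
# P192: finitely generated periodic groups of almost automorphisms

The class of groups `G` such that every homomorphism from a finitely presented periodic group to
`G` has finite image is closed under passing from a group of automorphisms of the tree of words to
the group of all bijections of the space of infinite words which are given, on finitely many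
cylinders, by a change of prefix followed by an element of the group. The depth of the cylinders is
uniformly bounded in every finitely generated periodic group of such bijections. Finitely generated
periodic groups of conformal `C^1` bijections of compact open subsets of finite-dimensional spaces
over a local field `K` have a subgroup of finite index in which all orders are powers of the
characteristic of `K`; in characteristic zero they are finite.
-/

namespace Vale.Agent.P192.H503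

open Vale.Agent.P192

/-- **Finitely generated periodic groups of almost automorphisms.** `FPB G` says that every
homomorphism from a finitely presented periodic group to `G` has finite image, `Bur G` the same
for finitely generated periodic groups, `Beg v ξ` that the infinite word `ξ` begins with `v`,
`Sec g v f` that `f` is the section of `g` at the word `v`. -/
theorem partB2 :
    -- (1) conformal `C^1` bijections over local fields
    (∀ (K : Type) [NontriviallyNormedField K] [IsUltrametricDist K] [LocallyCompactSpace K]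
      (V : Type) [NormedAddCommGroup V] [NormedSpace K V] [IsUltrametricDist V]
      [FiniteDimensional K V] (U : Set V), IsOpen U → IsCompact U →
      ∀ (Γ : Type) [Group Γ], Group.FG Γ → (∀ x : Γ, IsOfFinOrder x) →
      ∀ ρ : Γ →* Equiv.Perm U, (∀ (g : Γ) (x : U), ∃ (D : V →ₗ[K] V) (c : ℝ),
        0 < c ∧ (∀ v, ‖D v‖ = c * ‖v‖) ∧ ∀ ε : ℝ, 0 < ε → ∃ δ : ℝ, 0 < δ ∧ ∀ y z : U,
          ‖(y : V) - x‖ < δ → ‖(z : V) - x‖ < δ →
            ‖((ρ g y : V) - ρ g z) - D ((y : V) - z)‖ ≤ ε * ‖(y : V) - z‖) →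
      (∃ M : Subgroup Γ, M.FiniteIndex ∧
        ∀ g ∈ M, ∀ q : ℕ, q.Prime → q ∣ orderOf (ρ g) → (q : K) = 0) ∧
      (∀ g, ρ g ≠ 1 → ∃ L : Subgroup Γ, L.Normal ∧ L.FiniteIndex ∧ g ∉ L) ∧
      ((∀ g : Γ, ∃ n : ℕ, (n : K) ≠ 0 ∧ (ρ g) ^ n = 1) → Finite ρ.range)) ∧
    -- (2) uniformity for a decreasing sequence of partitions
    (∀ (Ω : Type) (E : ℕ → Setoid Ω), (∀ n x y, E (n + 1) x y → E n x y) →
      (∀ n, Finite (Quotient (E n))) → (∀ x y, (∀ n, E n x y) → x = y) →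
      (∀ n x, ∃ y, E n x y ∧ y ≠ x) →
      ∀ (Γ : Type) [Group Γ], Group.FG Γ → (∀ x : Γ, IsOfFinOrder x) →
      ∀ ρ : Γ →* Equiv.Perm Ω,
      (∀ g, ∃ n, ∀ x, ∃ m, ∀ y z k, E n x y →
        (E (n + k) y z ↔ E (m + k) (ρ g y) (ρ g z))) →
      (∃ (r : ℕ) (N : Subgroup Γ), N.FiniteIndex ∧ ∀ g ∈ N, ∀ x, E r x (ρ g x) ∧
        ∀ k y, r ≤ k → (E k x y ↔ E k (ρ g x) (ρ g y))) ∧
      ∀ g, ρ g ≠ 1 → ∃ K : Subgroup Γ, K.Normal ∧ K.FiniteIndex ∧ g ∉ K) ∧
    -- (3) the group of almost automorphisms with sections in `A`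
    (∀ (X : Type) [Finite X] (A : Subgroup (Equiv.Perm (List X))),
      (∀ a ∈ A, ∀ w, (a w).length = w.length) → (∀ a ∈ A, ∀ v, ∃ k ∈ A, Sec a v k) →
      ∃ V : Subgroup (Equiv.Perm (ℕ → X)), (FPB A → FPB V) ∧ (Bur A → Bur V) ∧
        ∀ g, g ∈ V ↔ ∃ n, ∀ v : List X, v.length = n → ∃ u : List X, ∃ a ∈ A,
          ∀ (ξ : ℕ → X) (w : List X), Beg (v ++ w) ξ ↔ Beg (u ++ a w) (g ξ)) ∧
    -- (4) sections with countably many singular rays, in particular of polynomial activity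
    (∀ (X : Type) [Finite X] (H : Subgroup (Equiv.Perm (List X))), FPB H →
      (∀ h ∈ H, ∀ v, ∃ k ∈ H, Sec h v k) →
      (∀ h ∈ H, ∀ ξ : ℕ → X, {f | ∃ n x, x ≠ ξ n ∧ Sec h (pre ξ n ++ [x]) f}.Finite) →
      ∃ V : Subgroup (Equiv.Perm (ℕ → X)), FPB V ∧
        (∀ g, g ∈ V ↔ ∃ n, ∀ v : List X, v.length = n → ∃ (u : List X)
          (a : Equiv.Perm (List X)), (∀ (ξ : ℕ → X) (w : List X),
            Beg (v ++ w) ξ ↔ Beg (u ++ a w) (g ξ)) ∧
          (∀ w, (a w).length = w.length) ∧ (∀ v w, a v <+: a (v ++ w)) ∧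
          (∀ ξ : ℕ → X, {f | ∃ n x, x ≠ ξ n ∧ Sec a (pre ξ n ++ [x]) f}.Finite) ∧
          {ξ : ℕ → X | ∀ n, ¬ ∃ k ∈ H, Sec a (pre ξ n) k}.Countable) ∧
        ∀ g : Equiv.Perm (ℕ → X), (∃ n, ∀ v : List X, v.length = n → ∃ (u : List X)
          (a : Equiv.Perm (List X)), (∀ (ξ : ℕ → X) (w : List X),
            Beg (v ++ w) ξ ↔ Beg (u ++ a w) (g ξ)) ∧
          (∀ w, (a w).length = w.length) ∧ (∀ v w, a v <+: a (v ++ w)) ∧
          {f | ∃ v, Sec a v f}.Finite ∧
          (∃ C k : ℕ, ∀ n, {v : List X | v.length = n ∧ ¬ ∃ h ∈ H, Sec a v h}.ncard ≤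
            C * (n + 1) ^ k)) → g ∈ V) := by
  refine ⟨?_, ?_, ?_, ?_⟩
  · intro K _ _ _ V _ _ _ _ U hU hc Γ _ hfg hfo ρ hC
    exact ⟨LF.conf_gen hU hc hfg hfo ρ hC, LF.conf_resid hU hc hfg hfo ρ hC,
      LF.conf_main hU hc hfg hfo ρ hC⟩
  · intro Ω E hdec hfin hsep hperf Γ _ hfg hper ρ hloc
    obtain ⟨r, N, hN, h⟩ := eq_main E hdec hfin hsep hperf hfg hper ρ hloc
    exact ⟨⟨r, N, hN, h⟩, fun g hg => eq_residual E hdec hfin hsep ρ hN h g hg⟩
  · intro X _ A hA1 hA2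
    obtain ⟨V, hV⟩ := exists_V A hA1 hA2
    exact ⟨V, V_fpb A hA1 hA2 V (fun g hg => (hV g).1 hg),
      V_bur A hA1 hA2 V (fun g hg => (hV g).1 hg), hV⟩
  · intro X _ H k4 k2 k3
    obtain ⟨C, hC, hc, hm⟩ := count_short X H k2 k3 k4
    have hA1 : ∀ a ∈ C, ∀ w, (a w).length = w.length := fun a ha => ((hm a).1 ha).1
    obtain ⟨V, hV⟩ := exists_V C hA1 hc
    have hV2 : ∀ g, g ∈ V ↔ ∃ n, ∀ v : List X, v.length = n → ∃ (u : List X)
          (a : Equiv.Perm (List X)), (∀ (ξ : ℕ → X) (w : List X),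
            Beg (v ++ w) ξ ↔ Beg (u ++ a w) (g ξ)) ∧
          (∀ w, (a w).length = w.length) ∧ (∀ v w, a v <+: a (v ++ w)) ∧
          (∀ ξ : ℕ → X, {f | ∃ n x, x ≠ ξ n ∧ Sec a (pre ξ n ++ [x]) f}.Finite) ∧
          {ξ : ℕ → X | ∀ n, ¬ ∃ k ∈ H, Sec a (pre ξ n) k}.Countable := by
      intro g
      rw [hV g]
      constructor
      · rintro ⟨n, hn⟩
        refine ⟨n, fun v hv => ?_⟩
        obtain ⟨u, a, ha, h⟩ := hn v hv
        exact ⟨u, a, h, (hm a).1 ha⟩
      · rintro ⟨n, hn⟩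
        refine ⟨n, fun v hv => ?_⟩
        obtain ⟨u, a, h, ha⟩ := hn v hv
        exact ⟨u, a, (hm a).2 ha, h⟩
    refine ⟨V, V_fpb C hA1 hc V (fun g hg => (hV g).1 hg) hC, hV2, ?_⟩
    rintro g ⟨n, hn⟩
    rw [hV g]
    refine ⟨n, fun v hv => ?_⟩
    obtain ⟨u, a, h, g1, g2, g3, g4⟩ := hn v hv
    exact ⟨u, a, (hm a).2 ⟨g1, g2, relpoly_short X H a g1 g2 g3 g4⟩, h⟩

end Vale.Agent.P192.H503
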