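import Vale.Agent.P192.R2.H503.Uniform

/-!
# P192: cones of a decreasing sequence of equivalence relations
-/

namespace Vale.Agent.P192.H503

universe u v

/-- cutting down the admissible similarities -/
def ConeSys.withQ {Ω : Type u} (D : ConeSys.{u, v} Ω) (Q : Equiv.Perm Ω → D.C → D.C → Prop)
    (Q_refl : ∀ a, Q 1 a a)
    (Q_mul : ∀ g h a b c, D.R g a b → D.R h b c → Q g a b → Q h b c → Q (h * g) a c)
    (Q_inv : ∀ g a b, D.R g a b → Q g a b → Q g⁻¹ b a)
    (Q_res : ∀ g a b a' b', D.R g a b → Q g a b → D.le a' a → D.le b' b → D.R g a' b' →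
      D.len b' + D.len a = D.len a' + D.len b → Q g a' b') : ConeSys.{u, v} Ω where
  C := D.C
  len := D.len
  le := D.le
  le_refl := D.le_refl
  le_trans := D.le_trans
  fin := D.fin
  anc := D.anc
  cmp := D.cmp
  R := fun g a b => D.R g a b ∧ Q g a b
  R_refl := fun a => ⟨D.R_refl a, Q_refl a⟩
  R_mul := fun g h a b c h1 h2 =>
    ⟨D.R_mul _ _ _ _ _ h1.1 h2.1, Q_mul _ _ _ _ _ h1.1 h2.1 h1.2 h2.2⟩
  R_inv := fun g a b h => ⟨D.R_inv _ _ _ h.1, Q_inv _ _ _ h.1 h.2⟩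
  R_res := by
    intro g a b a' h hle
    obtain ⟨b', hb', hR, hl⟩ := D.R_res g a b a' h.1 hle
    exact ⟨b', hb', ⟨hR, Q_res g a b a' b' h.1 h.2 hle hb' hR hl⟩, hl⟩
  R_one := fun a b h => D.R_one _ _ h.1

section

variable {Ω : Type u} (E : ℕ → Setoid Ω)

/-- `g` maps the class `a` onto the class `b` as a similarity -/
def ERel (g : Equiv.Perm Ω) (a b : Σ n, Quotient (E n)) : Prop :=
  (∀ x, Quotient.mk (E a.1) x = a.2 ↔ Quotient.mk (E b.1) (g x) = b.2) ∧
    ∀ x y k, Quotient.mk (E a.1) x = a.2 → (E (a.1 + k) x y ↔ E (b.1 + k) (g x) (g y))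

/-- the class `a` is inside the class `b` -/
def ELe (a b : Σ n, Quotient (E n)) : Prop :=
  b.1 ≤ a.1 ∧ ∀ x, (Quotient.mk (E a.1) x = a.2 → Quotient.mk (E b.1) x = b.2)

variable {E}

theorem e_mono (hdec : ∀ n x y, E (n + 1) x y → E n x y) {n m : ℕ} (h : n ≤ m) {x y : Ω}
    (hxy : E m x y) : E n x y := by
  induction m, h using Nat.le_induction with
  | base => exact hxy
  | succ m _ ih => exact ih (hdec m x y hxy)

theorem mk_eq {n : ℕ} {x y : Ω} : Quotient.mk (E n) x = Quotient.mk (E n) y ↔ E n x y :=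
  Quotient.eq

theorem ERel.one_eq (hdec : ∀ n x y, E (n + 1) x y → E n x y)
    (hsep : ∀ x y, (∀ n, E n x y) → x = y) (hperf : ∀ n x, ∃ y, E n x y ∧ y ≠ x)
    {a b : Σ n, Quotient (E n)} (h : ERel E 1 a b) (hle : a.1 ≤ b.1) : a = b := by
  obtain ⟨n, c⟩ := a
  obtain ⟨m, d⟩ := b
  obtain ⟨h1, h2⟩ := h
  simp only [Equiv.Perm.coe_one, id] at h1 h2 hle
  obtain ⟨x, rfl⟩ := Quotient.exists_rep c
  have hx : Quotient.mk (E m) x = d := (h1 x).1 rfl
  subst hx
  rcases hle.eq_or_lt with he | hlt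
  · subst he
    rfl
  · exfalso
    obtain ⟨y, hy, hyx⟩ := hperf n x
    apply hyx
    apply hsep
    -- all levels
    have key : ∀ i, E (n + i) x y := by
      intro i
      induction i with
      | zero => exact hy
      | succ i ih =>
        have h3 : E (m + i) x y := (h2 x y i rfl).1 ih
        exact e_mono hdec (by omega) h3
    intro j
    exact (E j).symm (e_mono hdec (Nat.le_add_left j n) (key j))

/-- the system of classes of a decreasing sequence of equivalence relations -/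
def eqSys (E : ℕ → Setoid Ω) (hdec : ∀ n x y, E (n + 1) x y → E n x y)
    (hfin : ∀ n, Finite (Quotient (E n))) (hsep : ∀ x y, (∀ n, E n x y) → x = y)
    (hperf : ∀ n x, ∃ y, E n x y ∧ y ≠ x) : ConeSys.{u, u} Ω where
  C := Σ n, Quotient (E n)
  len := fun a => a.1
  le := ELe E
  le_refl := fun a => ⟨le_rfl, fun _ h => h⟩
  le_trans := fun a b c h1 h2 => ⟨h2.1.trans h1.1, fun x hx => h2.2 x (h1.2 x hx)⟩
  fin := by
    intro n
    have : {a : Σ n, Quotient (E n) | a.1 = n} = Set.range (fun c => (⟨n, c⟩ : Σ n, _)) := by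
      ext ⟨m, c⟩
      constructor
      · rintro rfl
        exact ⟨c, rfl⟩
      · rintro ⟨c', hc'⟩
        exact (congrArg Sigma.fst hc').symm
    rw [this]
    have := hfin n
    exact Set.finite_range _
  anc := by
    rintro ⟨m, c⟩ n hn
    obtain ⟨x, rfl⟩ := Quotient.exists_rep c
    exact ⟨⟨n, Quotient.mk (E n) x⟩, ⟨hn, fun y hy => mk_eq.2 (e_mono hdec hn (mk_eq.1 hy))⟩, rfl⟩
  cmp := by
    rintro ⟨n, c⟩ ⟨m, d⟩ ⟨l, e⟩ h1 h2 hml
    obtain ⟨x, rfl⟩ := Quotient.exists_rep c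
    have h3 := h1.2 x rfl
    have h4 := h2.2 x rfl
    simp only at h3 h4 hml
    subst h3 h4
    exact ⟨hml, fun y hy => mk_eq.2 (e_mono hdec hml (mk_eq.1 hy))⟩
  R := ERel E
  R_refl := fun a => ⟨fun _ => Iff.rfl, fun _ _ _ _ => Iff.rfl⟩
  R_mul := by
    intro g h a b c h1 h2
    exact ⟨fun x => (h1.1 x).trans (h2.1 (g x)),
      fun x y k hx => (h1.2 x y k hx).trans (h2.2 (g x) (g y) k ((h1.1 x).1 hx))⟩
  R_inv := by
    intro g a b h
    refine ⟨fun x => ?_, fun x y k hx => ?_⟩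
    · have := h.1 (g⁻¹ x)
      simp only [Equiv.Perm.coe_inv, Equiv.apply_symm_apply] at this ⊢
      exact this.symm
    · have h1 := h.1 (g⁻¹ x)
      have h2 := h.2 (g⁻¹ x) (g⁻¹ y) k
      simp only [Equiv.Perm.coe_inv, Equiv.apply_symm_apply] at h1 h2 ⊢
      exact (h2 (h1.2 hx)).symm
  R_res := by
    rintro g ⟨n, c⟩ ⟨m, d⟩ ⟨l, e⟩ ⟨h1, h2⟩ hle
    obtain ⟨x, rfl⟩ := Quotient.exists_rep e
    have hx : Quotient.mk (E n) x = c := hle.2 x rfl
    obtain ⟨k, hk⟩ := Nat.exists_eq_add_of_le hle.1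
    simp only at hk h1 h2
    subst hk hx
    have hgx : Quotient.mk (E m) (g x) = d := (h1 x).1 rfl
    subst hgx
    refine ⟨⟨m + k, Quotient.mk (E (m + k)) (g x)⟩, ⟨Nat.le_add_right _ _, fun y hy =>
      mk_eq.2 (e_mono hdec (Nat.le_add_right _ _) (mk_eq.1 hy))⟩, ⟨fun y => ?_, ?_⟩, ?_⟩
    · have := h2 x y k rfl
      rw [mk_eq, mk_eq]
      constructor
      · intro h
        exact (E (m + k)).symm (this.1 ((E (n + k)).symm h))
      · intro h
        exact (E (n + k)).symm (this.2 ((E (m + k)).symm h))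
    · intro y z j hy
      have hyn : Quotient.mk (E n) y = Quotient.mk (E n) x :=
        mk_eq.2 (e_mono hdec (Nat.le_add_right _ _) (mk_eq.1 hy))
      have := h2 y z (k + j) hyn
      rw [← Nat.add_assoc n k j, ← Nat.add_assoc m k j] at this
      exact this
    · change m + k + n = n + k + m
      omega
  R_one := by
    intro a b h
    rcases le_total a.1 b.1 with hle | hle
    · exact h.one_eq hdec hsep hperf hle
    · refine (ERel.one_eq hdec hsep hperf (a := b) (b := a) ?_ hle).symm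
      refine ⟨fun x => (h.1 x).symm, fun x y k hx => ?_⟩
      exact (h.2 x y k ((h.1 x).2 hx)).symm

theorem eqSys_def {E : ℕ → Setoid Ω} {hdec : ∀ n x y, E (n + 1) x y → E n x y}
    {hfin : ∀ n, Finite (Quotient (E n))} {hsep : ∀ x y, (∀ n, E n x y) → x = y}
    {hperf : ∀ n x, ∃ y, E n x y ∧ y ≠ x} {g : Equiv.Perm Ω} {n : ℕ}
    (h : ∀ x, ∃ m, ∀ y z k, E n x y → (E (n + k) y z ↔ E (m + k) (g y) (g z))) :
    (eqSys E hdec hfin hsep hperf).Def n g := by
  rintro ⟨n', c⟩ hn'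
  change n' = n at hn'
  subst hn'
  obtain ⟨x, rfl⟩ := Quotient.exists_rep c
  obtain ⟨m, hm⟩ := h x
  refine ⟨⟨m, Quotient.mk (E m) (g x)⟩, fun y => ?_, fun y z k hy => ?_⟩
  · rw [mk_eq, mk_eq]
    have : E n' x y ↔ E m (g x) (g y) := hm x y 0 ((E n').refl x)
    constructor
    · intro h
      exact (E m).symm (this.1 ((E n').symm h))
    · intro h
      exact (E n').symm (this.2 ((E m).symm h))
  · exact hm y z k ((E n').symm (mk_eq.1 hy))

/-- **Almost automorphisms.** -/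
theorem eq_main (E : ℕ → Setoid Ω) (hdec : ∀ n x y, E (n + 1) x y → E n x y)
    (hfin : ∀ n, Finite (Quotient (E n))) (hsep : ∀ x y, (∀ n, E n x y) → x = y)
    (hperf : ∀ n x, ∃ y, E n x y ∧ y ≠ x) {Γ : Type*} [Group Γ] (hfg : Group.FG Γ)
    (hper : ∀ x : Γ, IsOfFinOrder x) (ρ : Γ →* Equiv.Perm Ω)
    (hloc : ∀ g, ∃ n, ∀ x, ∃ m, ∀ y z k, E n x y → (E (n + k) y z ↔
      E (m + k) (ρ g y) (ρ g z))) :
    ∃ (r : ℕ) (N : Subgroup Γ), N.FiniteIndex ∧ ∀ g ∈ N, ∀ x, E r x (ρ g x) ∧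
      ∀ k y, r ≤ k → (E k x y ↔ E k (ρ g x) (ρ g y)) := by
  obtain ⟨r, N, hN, h⟩ := (eqSys E hdec hfin hsep hperf).exists_finiteIndex hfg hper ρ
    (fun g => (hloc g).imp fun n hn => eqSys_def hn)
  refine ⟨r, N, hN, fun g hg x => ?_⟩
  obtain ⟨h1, h2⟩ := h g hg ⟨r, Quotient.mk (E r) x⟩ rfl
  refine ⟨?_, fun k y hk => ?_⟩
  · exact (E r).symm (mk_eq.1 ((h1 x).1 rfl))
  · obtain ⟨j, rfl⟩ := Nat.exists_eq_add_of_le hk
    exact h2 x y j rfl

end

end Vale.Agent.P192.H503
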