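import Vale.Agent.P192.R2.H503.Cone

/-!
# P192: systems of cones and finitely generated periodic groups
-/

namespace Vale.Agent.P192.H503

universe u v

namespace ConeSys

variable {Ω : Type u} (D : ConeSys.{u, v} Ω)

theorem Def.mono {n m : ℕ} {g : Equiv.Perm Ω} (h : D.Def n g) (hnm : n ≤ m) : D.Def m g := by
  intro a ha
  obtain ⟨b, hb, -⟩ := h.step D (a := a) (by omega)
  exact ⟨b, hb⟩

theorem pp_congr {s s' : ℕ → Equiv.Perm Ω} {k : ℕ} (h : ∀ i < k, s i = s' i) :
    pp s k = pp s' k := by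
  induction k with
  | zero => rfl
  | succ k ih =>
    simp only [pp]
    rw [ih (fun i hi => h i (by omega)), h k (by omega)]

variable {Γ : Type*} [Group Γ]

theorem exists_path (ρ : Γ →* Equiv.Perm Ω) (P : Equiv.Perm Ω → Prop) (h1 : P 1) (l : List Γ)
    (hl : ∀ x ∈ l, P (ρ x)) :
    ∃ s : ℕ → Equiv.Perm Ω, (∀ i, P (s i) ∧ s i ∈ ρ.range) ∧ ∃ k, pp s k = ρ l.prod := by
  induction l with
  | nil => exact ⟨fun _ => 1, fun _ => ⟨h1, one_mem _⟩, 0, by simp [pp]⟩
  | cons x l ih =>
    obtain ⟨s, hs, k, hk⟩ := ih (fun y hy => hl y (List.mem_cons_of_mem _ hy))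
    refine ⟨fun i => if i < k then s i else ρ x, ?_, k + 1, ?_⟩
    · intro i
      by_cases hi : i < k
      · simp only [hi, if_true]
        exact hs i
      · simp only [hi, if_false]
        exact ⟨hl x List.mem_cons_self, ⟨x, rfl⟩⟩
    · have : pp (fun i => if i < k then s i else ρ x) k = pp s k := by
        apply pp_congr
        intro i hi
        simp [hi]
      simp only [pp, lt_irrefl, if_false, this, hk, List.prod_cons, map_mul]

theorem pp_mem (ρ : Γ →* Equiv.Perm Ω) {s : ℕ → Equiv.Perm Ω} (hs : ∀ i, s i ∈ ρ.range) (k : ℕ) :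
    pp s k ∈ ρ.range := by
  induction k with
  | zero => exact one_mem _
  | succ k ih => exact mul_mem (hs k) ih

/-- **Uniform depth for finitely generated periodic groups.** -/
theorem uniform (hfg : Group.FG Γ) (hper : ∀ x : Γ, IsOfFinOrder x) (ρ : Γ →* Equiv.Perm Ω)
    (hloc : ∀ g, ∃ n, D.Def n (ρ g)) :
    ∃ r, ∀ g a, D.len a = r → ∃ b, D.R (ρ g) a b ∧ D.len b ≤ 2 * r := by
  classical
  obtain ⟨S, hS⟩ := hfg.out
  choose f hf using hloc
  -- a common depth for the generators
  obtain ⟨n, hn0, hn⟩ : ∃ n, 0 < n ∧ ∀ x ∈ S, D.Def n (ρ x) ∧ D.Def n (ρ x⁻¹) := by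
    refine ⟨S.sup (fun x => max (f x) (f x⁻¹)) + 1, by omega, fun x hx => ?_⟩
    have h1 : max (f x) (f x⁻¹) ≤ S.sup (fun x => max (f x) (f x⁻¹)) :=
      Finset.le_sup (f := fun x => max (f x) (f x⁻¹)) hx
    exact ⟨(hf x).mono D (by omega), (hf x⁻¹).mono D (by omega)⟩
  set K := {a | D.len a = n}.ncard with hK
  set r := n * (K + 2) with hr
  have hnr : n ≤ r := by nlinarith
  -- all group elements are defined at depth `r`
  have key : ∀ g a, D.len a = r → ∃ b, D.R (ρ g) a b ∧ n ≤ D.len b := by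
    intro g a ha
    have hg : g ∈ Subgroup.closure (S : Set Γ) := by rw [hS]; trivial
    rw [← Subgroup.mem_toSubmonoid, Subgroup.closure_toSubmonoid] at hg
    obtain ⟨l, hl, hlg⟩ := Submonoid.exists_list_of_mem_closure hg
    obtain ⟨s, hs, k, hk⟩ := exists_path ρ (fun x => D.Def n x ∧ D.Def n x⁻¹)
      ⟨fun a _ => ⟨a, D.R_refl a⟩, fun a _ => ⟨a, by simpa using D.R_refl a⟩⟩ l (by
        intro x hx
        rcases hl x hx with h | h
        · have := hn x h
          exact ⟨this.1, by simpa using this.2⟩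
        · have := hn x⁻¹ h
          exact ⟨by simpa using this.2, by simpa using this.1⟩)
    rw [← hlg, ← hk]
    refine uniform_path (D := D) hn0 (fun i => (hs i).1) ?_ r le_rfl a ha k
    intro i j
    obtain ⟨x, hx⟩ := mul_mem (pp_mem ρ (fun i => (hs i).2) i)
      (inv_mem (pp_mem ρ (fun i => (hs i).2) j))
    rw [← hx]
    exact MonoidHom.isOfFinOrder ρ (hper x)
  refine ⟨r, fun g a ha => ?_⟩
  obtain ⟨b, hb, hbn⟩ := key g a ha
  refine ⟨b, hb, ?_⟩
  by_contra hlt
  obtain ⟨b0, hb0, hb0l⟩ := D.anc b r (by omega)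
  obtain ⟨e, he, hen⟩ := key g⁻¹ b0 hb0l
  obtain ⟨e', -, he', hel⟩ := D.R_res _ _ _ b he hb0
  have : e' = a := by
    have h1 := D.R_inv _ _ _ hb
    rw [map_inv] at he'
    exact D.R_unique he' h1
  subst this
  omega

/-- A finite index subgroup fixes all cones of some length. -/
theorem exists_finiteIndex (hfg : Group.FG Γ) (hper : ∀ x : Γ, IsOfFinOrder x)
    (ρ : Γ →* Equiv.Perm Ω) (hloc : ∀ g, ∃ n, D.Def n (ρ g)) :
    ∃ (r : ℕ) (N : Subgroup Γ), N.FiniteIndex ∧ ∀ g ∈ N, ∀ a, D.len a = r → D.R (ρ g) a a := by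
  classical
  obtain ⟨r, hr⟩ := D.uniform hfg hper ρ hloc
  let N : Subgroup Γ :=
    { carrier := {g | ∀ a, D.len a = r → D.R (ρ g) a a}
      one_mem' := fun a _ => by simpa using D.R_refl a
      mul_mem' := by
        intro g h hg hh a ha
        rw [map_mul]
        exact D.R_mul _ _ _ _ _ (hh a ha) (hg a ha)
      inv_mem' := by
        intro g hg a ha
        rw [map_inv]
        exact D.R_inv _ _ _ (hg a ha) }
  refine ⟨r, N, ?_, fun g hg => hg⟩
  choose F hF using hr
  have hfin2 : {b | D.len b ≤ 2 * r}.Finite := by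
    have : {b | D.len b ≤ 2 * r} = ⋃ i ∈ Finset.range (2 * r + 1), {b | D.len b = i} := by
      ext b
      simp
    rw [this]
    exact Set.Finite.biUnion (Finset.finite_toSet _) (fun i _ => D.fin i)
  have : Finite {a // D.len a = r} := (D.fin r).to_subtype
  have : Finite {b // D.len b ≤ 2 * r} := hfin2.to_subtype
  let G : Γ → ({a // D.len a = r} → {b // D.len b ≤ 2 * r}) :=
    fun g a => ⟨F g a.1 a.2, (hF g a.1 a.2).2⟩
  have hG : ∀ g h, G g = G h → g⁻¹ * h ∈ N := by
    intro g h hgh a ha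
    have h1 : F g a ha = F h a ha := congrArg Subtype.val (congrFun hgh ⟨a, ha⟩)
    have h2 := (hF g a ha).1
    have h3 := (hF h a ha).1
    rw [← h1] at h3
    rw [map_mul, map_inv]
    exact D.R_mul _ _ _ _ _ h3 (D.R_inv _ _ _ h2)
  have hinj : Function.Injective (fun q : Γ ⧸ N => G q.out) := by
    intro q q' h
    have := hG _ _ h
    rw [← QuotientGroup.eq, QuotientGroup.out_eq', QuotientGroup.out_eq'] at this
    exact this
  have : Finite (Γ ⧸ N) := Finite.of_injective _ hinj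
  exact Subgroup.finiteIndex_of_finite_quotient

end ConeSys

end Vale.Agent.P192.H503
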