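import Vale.Agent.P192.R2.H503.PadicMain
import Vale.Agent.P192.H663.Calc

/-!
# P192: almost automorphisms of the tree of words with sections in a given group
-/

namespace Vale.Agent.P192.H503

section word

variable {X : Type}

/-- the infinite word `ξ` begins with `v` -/
def Beg (v : List X) (ξ : ℕ → X) : Prop := ∀ (i : ℕ) (h : i < v.length), v[i] = ξ i

theorem beg_append {v w : List X} {ξ : ℕ → X} :
    Beg (v ++ w) ξ ↔ Beg v ξ ∧ Beg w (fun i => ξ (v.length + i)) := by
  constructor
  · intro h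
    refine ⟨fun i hi => ?_, fun i hi => ?_⟩
    · have := h i (by rw [List.length_append]; omega)
      rwa [List.getElem_append_left hi] at this
    · have := h (v.length + i) (by rw [List.length_append]; omega)
      rw [List.getElem_append_right (by omega)] at this
      simpa using this
  · rintro ⟨h1, h2⟩ i hi
    have hi' : i < v.length + w.length := by rwa [List.length_append] at hi
    rcases lt_or_ge i v.length with h | h
    · rw [List.getElem_append_left h]
      exact h1 i h
    · rw [List.getElem_append_right h]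
      have h3 : i - v.length < w.length := by omega
      have h4 : v.length + (i - v.length) = i := by omega
      have := h2 (i - v.length) h3
      rw [this]
      exact congrArg ξ h4

theorem Beg.pre {v w : List X} (h : v <+: w) {ξ : ℕ → X} (hw : Beg w ξ) : Beg v ξ := by
  obtain ⟨z, rfl⟩ := h
  exact (beg_append.1 hw).1

theorem Beg.eq {v w : List X} {ξ : ℕ → X} (hv : Beg v ξ) (hw : Beg w ξ)
    (h : v.length = w.length) : v = w := by
  apply List.ext_getElem h
  intro i h1 h2
  rw [hv i h1, hw i h2]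

theorem Beg.isPfx {v w : List X} {ξ : ℕ → X} (hv : Beg v ξ) (hw : Beg w ξ)
    (h : v.length ≤ w.length) : v <+: w := by
  have h1 : Beg (w.take v.length) ξ := hw.pre (List.take_prefix _ _)
  have h2 : v = w.take v.length := hv.eq h1 (by simp [h])
  rw [h2]
  exact List.take_prefix _ _

theorem exists_beg [Inhabited X] (v : List X) : ∃ ξ : ℕ → X, Beg v ξ :=
  ⟨fun i => v.getD i default, fun i hi => by simp [hi]⟩

theorem exists_beg_ne [Nontrivial X] (v : List X) (x : X) :
    ∃ ξ : ℕ → X, Beg v ξ ∧ ξ v.length ≠ x := by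
  obtain ⟨y, hy⟩ := exists_ne x
  refine ⟨fun i => v.getD i y, fun i hi => by simp [hi], by simpa using hy⟩

theorem beg_take (ξ : ℕ → X) (n : ℕ) : Beg (List.ofFn (fun i : Fin n => ξ i)) ξ := by
  intro i hi
  simp

theorem ext_beg {ξ η : ℕ → X} {v : List X} (hξ : Beg v ξ) (h : ∀ w, Beg (v ++ w) ξ →
    Beg (v ++ w) η) : ξ = η := by
  funext i
  -- a long prefix of `ξ`
  have h1 := beg_take ξ (v.length + i + 1)
  obtain ⟨w, hw⟩ := hξ.isPfx h1 (by simp; omega)
  rw [← hw] at h1
  have h2 := h w h1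
  have hl : i < (v ++ w).length := by
    have := congrArg List.length hw
    rw [this]
    simp
  rw [← h1 i hl, ← h2 i hl]

variable (A : Subgroup (Equiv.Perm (List X)))

/-- `g` maps the words beginning with `v` onto those beginning with `u`, through `A` -/
def WR (g : Equiv.Perm (ℕ → X)) (v u : List X) : Prop :=
  ∃ a ∈ A, ∀ (ξ : ℕ → X) (w : List X), Beg (v ++ w) ξ ↔ Beg (u ++ a w) (g ξ)

/-- the system of cylinders -/
def wordSys [Finite X] [Nontrivial X] (hA1 : ∀ a ∈ A, ∀ w, (a w).length = w.length)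
    (hA2 : ∀ a ∈ A, ∀ v, ∃ k ∈ A, ∀ w, a (v ++ w) = a v ++ k w) :
    ConeSys.{0, 0} (ℕ → X) where
  C := List X
  len := List.length
  le := fun v u => u <+: v
  le_refl := fun v => List.prefix_refl v
  le_trans := fun a b c h1 h2 => h2.trans h1
  fin := fun n => List.finite_length_eq X n
  anc := fun a n hn => ⟨a.take n, List.take_prefix _ _, by simp [hn]⟩
  cmp := fun a b c h1 h2 h => List.prefix_of_prefix_length_le h1 h2 h
  R := WR A
  R_refl := fun a => ⟨1, one_mem _, fun ξ w => by simp⟩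
  R_mul := by
    rintro g h u v w ⟨a, ha, hga⟩ ⟨b, hb, hhb⟩
    refine ⟨b * a, mul_mem hb ha, fun ξ z => ?_⟩
    rw [hga ξ z, hhb (g ξ) (a z)]
    rfl
  R_inv := by
    rintro g v u ⟨a, ha, hga⟩
    refine ⟨a⁻¹, inv_mem ha, fun ξ w => ?_⟩
    have := hga (g⁻¹ ξ) (a⁻¹ w)
    simp only [Equiv.Perm.coe_inv, Equiv.apply_symm_apply] at this ⊢
    exact this.symm
  R_res := by
    rintro g v u v' ⟨a, ha, hga⟩ ⟨z, rfl⟩
    obtain ⟨k, hk, hak⟩ := hA2 a ha z
    refine ⟨u ++ a z, List.prefix_append _ _, ⟨k, hk, fun ξ w => ?_⟩, ?_⟩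
    · rw [List.append_assoc, hga ξ (z ++ w), hak, List.append_assoc]
    · simp only [List.length_append, hA1 a ha]
      omega
  R_one := by
    rintro v u ⟨a, ha, h⟩
    have h1 : ∀ ξ, Beg v ξ ↔ Beg u ξ := by
      intro ξ
      have h2 := h ξ []
      have h3 : a [] = [] := List.length_eq_zero_iff.1 (by rw [hA1 a ha]; rfl)
      simpa [h3] using h2
    have key : ∀ v u : List X, (∀ ξ, Beg v ξ ↔ Beg u ξ) → v.length ≤ u.length → v = u := by
      intro v u h1 hl
      rcases hl.eq_or_lt with he | hlt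
      · have : Inhabited X := Classical.inhabited_of_nonempty inferInstance
        obtain ⟨ξ, hξ⟩ := exists_beg v
        exact hξ.eq ((h1 ξ).1 hξ) he
      · exfalso
        obtain ⟨ξ, hξ, hne⟩ := exists_beg_ne v (u[v.length])
        exact hne (((h1 ξ).1 hξ) v.length hlt).symm
    rcases le_total v.length u.length with hl | hl
    · exact key v u h1 hl
    · exact (key u v (fun ξ => (h1 ξ).symm) hl).symm

/-- uniqueness of the section -/
theorem WR_unique [Nonempty X] (hA1 : ∀ a ∈ A, ∀ w, (a w).length = w.length)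
    {g : Equiv.Perm (ℕ → X)} {v u : List X} {a b : Equiv.Perm (List X)} (ha : a ∈ A) (hb : b ∈ A)
    (h1 : ∀ (ξ : ℕ → X) (w : List X), Beg (v ++ w) ξ ↔ Beg (u ++ a w) (g ξ))
    (h2 : ∀ (ξ : ℕ → X) (w : List X), Beg (v ++ w) ξ ↔ Beg (u ++ b w) (g ξ)) : a = b := by
  have : Inhabited X := Classical.inhabited_of_nonempty inferInstance
  ext1 w
  obtain ⟨ξ, hξ⟩ := exists_beg (v ++ w)
  have e1 := (h1 ξ w).1 hξ
  have e2 := (h2 ξ w).1 hξ
  have e3 := e1.eq e2 (by simp [hA1 a ha, hA1 b hb])
  exact List.append_cancel_left e3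

/-- **Almost automorphisms with sections in `A`.** -/
theorem word_main [Finite X] (hA1 : ∀ a ∈ A, ∀ w, (a w).length = w.length)
    (hA2 : ∀ a ∈ A, ∀ v, ∃ k ∈ A, ∀ w, a (v ++ w) = a v ++ k w)
    {Γ : Type} [Group Γ] (hfg : Group.FG Γ) (hper : ∀ x : Γ, IsOfFinOrder x)
    (hA : ∀ N : Subgroup Γ, N.FiniteIndex → ∀ f : N →* A, Finite f.range)
    (ρ : Γ →* Equiv.Perm (ℕ → X))
    (hloc : ∀ g, ∃ n, ∀ v : List X, v.length = n → ∃ u, WR A (ρ g) v u) : Finite ρ.range := by
  rcases subsingleton_or_nontrivial X with hX | hX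
  · have : Subsingleton (Equiv.Perm (ℕ → X)) := inferInstance
    infer_instance
  obtain ⟨r, N, hN, h⟩ := (wordSys A hA1 hA2).exists_finiteIndex hfg hper ρ hloc
  have h1 : ∀ (g : N) (v : {v : List X // v.length = r}), ∃ a : A, ∀ (ξ : ℕ → X) (w : List X),
      Beg (v.1 ++ w) ξ ↔ Beg (v.1 ++ a.1 w) (ρ g ξ) := by
    intro g v
    obtain ⟨a, ha, h2⟩ := h g g.2 v.1 v.2
    exact ⟨⟨a, ha⟩, h2⟩
  choose ψ hψ using h1
  have hψ1 : ∀ v, ψ 1 v = 1 := by
    intro v
    apply Subtype.ext
    refine WR_unique A hA1 (ψ 1 v).2 (one_mem _) (hψ 1 v) (fun ξ w => ?_)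
    simp
  have hψm : ∀ g g' v, ψ (g * g') v = ψ g v * ψ g' v := by
    intro g g' v
    apply Subtype.ext
    refine WR_unique A hA1 (ψ (g * g') v).2 (mul_mem (ψ g v).2 (ψ g' v).2) (hψ (g * g') v)
      (fun ξ w => ?_)
    rw [hψ g' v ξ w, hψ g v (ρ g' ξ) _]
    simp [map_mul]
  let f : ∀ v : {v : List X // v.length = r}, N →* A := fun v =>
    { toFun := fun g => ψ g v
      map_one' := hψ1 v
      map_mul' := fun g g' => hψm g g' v }
  have hfin : Finite {v : List X // v.length = r} := (List.finite_length_eq X r).to_subtype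
  have hker : ∀ v, (f v).ker.FiniteIndex := by
    intro v
    have := hA N hN (f v)
    exact Subgroup.finiteIndex_ker (f v)
  have hinf : (⨅ v, (f v).ker).FiniteIndex := Subgroup.finiteIndex_iInf hker
  -- the kernel of the action
  let M : Subgroup Γ := (⨅ v, (f v).ker).map N.subtype
  have hM : M.FiniteIndex := by
    refine ⟨?_⟩
    rw [Subgroup.index_map_subtype]
    exact mul_ne_zero hinf.index_ne_zero hN.index_ne_zero
  refine finite_range_of_ker ρ hM ?_
  rintro _ ⟨g, hg, rfl⟩
  rw [MonoidHom.mem_ker]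
  ext1 ξ
  have h2 : ∀ v, ψ g v = 1 := by
    intro v
    have := (Subgroup.mem_iInf.1 hg) v
    exact this
  have h3 := beg_take ξ r
  have h4 := hψ g ⟨List.ofFn (fun i : Fin r => ξ i), by simp⟩
  rw [h2] at h4
  refine (ext_beg (v := List.ofFn (fun i : Fin r => ξ i)) h3 (fun w hw => ?_)).symm
  have h5 := (h4 ξ w).1 hw
  simpa using h5

end word

end Vale.Agent.P192.H503
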